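import Vale.Agent.P025.R2.H497.Twist
import Vale.Agent.P025.R2.H680.Core

/-!
# P025 (7.3), G-BRANCH (helper497): the main theorems
-/

open Polynomial Filter Topology IntermediateField

universe u

namespace P025H497

open Vale.Agent.P019P P025H373 P025H746 P025H725

set_option linter.unusedSectionVars false
set_option linter.style.haveILetI false

noncomputable section

section ovr

variable {C K : Type*} [NormedField C] [IsUltrametricDist C] [Field K] [Algebra C K]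

/-- an element with transcendental reduction -/
theorem overG_of_red {w : NV C K} {z : K} (hz : w z ≤ 1) (h : Transcendental (kC C) (w.red z)) :
    w.OverG z := by
  intro P
  by_cases hP : P = 0
  · rw [hP, map_zero, gp_zero]; exact w.av.map_zero
  have ha := a0_ne hP
  set Q : C[X] := Polynomial.C (a0 P)⁻¹ * P with hQ
  have hQ1 : gp Q = 1 := by
    rw [hQ, gp_mul, gp_C, norm_inv, norm_a0, inv_mul_cancel₀]
    exact fun h => hP (gp_eq_zero.1 h)
  have hPQ : P = Polynomial.C (a0 P) * Q := by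
    rw [hQ, ← mul_assoc, ← Polynomial.C_mul, mul_inv_cancel₀ ha, Polynomial.C_1, one_mul]
  have h1 : w (aeval z Q) = 1 := by
    refine le_antisymm (NV.aeval_le hz hQ1.le) (not_lt.1 fun h2 => ?_)
    have h3 := NV.red_aeval hz hQ1.le
    rw [NV.red_of_lt h2] at h3
    have h4 := (transcendental_iff.1 h) _ h3.symm
    rw [pred_eq_zero hQ1.le, hQ1] at h4
    exact lt_irrefl _ h4
  conv_lhs => rw [hPQ]
  rw [map_mul, aeval_C, map_mul, w.ext', h1, mul_one, norm_a0]

theorem charP_kap' {p : ℕ} (hp : p.Prime) (hpC : ‖(p : C)‖ < 1) (w : NV C K) :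
    CharP (kap w) p := by
  rw [CharP.charP_iff_prime_eq_zero hp]
  have h1 : w.red (algebraMap C K (p : C)) = 0 := by
    rw [NV.red_algebraMap hpC.le, (cred_eq_zero hpC.le).2 hpC, map_zero]
  have h2 : ∀ n : ℕ, w.red (n : K) = (n : kap w) := by
    intro n
    have hn : ∀ n : ℕ, w (n : K) ≤ 1 := fun n => by
      rw [← map_natCast (algebraMap C K), w.ext']
      exact IsUltrametricDist.norm_natCast_le_one C n
    induction n with
    | zero => simp
    | succ n ih => rw [Nat.cast_succ, NV.red_add (hn n) (by rw [map_one]), ih, NV.red_one,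
        Nat.cast_succ]
  rw [map_natCast (algebraMap C K), h2] at h1
  exact h1

end ovr

section Main

variable (C K : Type u) [NontriviallyNormedField C] [IsUltrametricDist C] [CompleteSpace C]
  [IsAlgClosed C] [CharZero C] [Field K] [Algebra C K] [CFF C K]

/-- G-STAB (helper746): the sum of the residue degrees over every Gauss norm is the degree -/
def StabSum : Prop := ∀ z : K, Transcendental C z →
  ∑ᶠ w : {w : NV C K // w.OverG z}, Module.finrank (kC C)⟮w.1.red z⟯ (kap w.1) =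
    Module.finrank C⟮z⟯ K

/-- = `P025H621.NearAll C p K` -/
def Near (p : ℕ) : Prop :=
  ∀ g : K, g ≠ 0 → P025H621.DivN C p g → ∀ (T : K) (w : NV C K), w.OverG T → NearW p w g

variable {C K}

/-- there is no pole of order prime to `p` -/
theorem no_pole (hS : StabSum C K) (hv : ∀ r : ℝ, 0 ≤ r → ∃ x : C, ‖x‖ = r) {p : ℕ}
    (hp : p.Prime) (hpC : ‖(p : C)‖ < 1) (hN : Near C K p) {l : C} (hl : l ^ (p - 1) = -(p : C))
    {w : NV C K} [CFF (kC C) (kap w)] {f y A : K} (hf : f ≠ 0)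
    (hd : P025H621.DivN C p f) (hA : w A ≤ 1) (hy : y ≠ 0)
    (h : f = y ^ p * (1 + algebraMap C K l ^ p * A)) (x : Plk (kC C) (kap w))
    (hneg : ord x (w.red A) < 0) : (p : ℤ) ∣ ord x (w.red A) := by
  by_contra hndvd
  have h0 : (p : C) ≠ 0 := by exact_mod_cast hp.ne_zero
  have hl0 : 0 < ‖l‖ := norm_l_pos hp h0 hl
  have hl1 : ‖l‖ < 1 := norm_l_lt hpC hl
  have hlp1 : ‖l‖ ^ p < 1 := pow_lt_one₀ hl0.le hl1 hp.ne_zero
  -- the uniformizer
  obtain ⟨ζ, hζ0, hζ⟩ := exists_unif x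
  obtain ⟨z, hwz, rfl⟩ := NV.red_surj ζ
  have hnc : ∀ a : kC C, w.red z ≠ algebraMap (kC C) (kap w) a := by
    intro a ha
    rw [ha, ord_const] at hζ
    exact zero_ne_one hζ
  have hz : w.OverG z := overG_of_red hwz (finite_of_notMem hnc).1
  have hztr : Transcendental C z := hz.transc
  haveI : FiniteDimensional C⟮z⟯ K := CFld_finite hztr
  letI : Algebra (RatFunc C) K := ratAlg z hztr
  haveI : IsScalarTower C (RatFunc C) K := ratAlg_tower z hztr
  have hX : z = algebraMap (RatFunc C) K RatFunc.X := (ratAlg_X z hztr).symm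
  haveI : (fl C).NeBot := fl_neBot C hv
  obtain ⟨L, hLV, hLe⟩ := exists_lat hX (hS z hztr)
  -- the point
  have hxz : x.1.valuation (w.red z) < 1 := by
    rw [pl_lt_iff, mem_Mge, hζ]
    exact Or.inr le_rfl
  set j0 : Jz C z := ⟨⟨w, hz⟩, ⟨x, hxz⟩⟩ with hj0
  haveI : Nonempty (Jz C z) := ⟨j0⟩
  have he : L.e j0 = 1 := by
    rw [hLe]
    change (ord x (w.red z)).toNat = 1
    rw [hζ]
    rfl
  -- the leading coefficient
  obtain ⟨n, hn⟩ : ∃ n : ℕ, ord x (w.red A) = -(n : ℤ) :=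
    ⟨(-ord x (w.red A)).toNat, by omega⟩
  have hn1 : 1 ≤ n := by omega
  have hpn : ¬ p ∣ n := by
    intro hdiv
    apply hndvd
    rw [hn, dvd_neg]
    exact_mod_cast hdiv
  have hrA0 : w.red A ≠ 0 := by
    intro h1
    rw [h1, ord_zero] at hneg
    exact lt_irrefl _ hneg
  have hzn : w (z ^ n) ≤ 1 := NV.pow_le_one' hwz n
  have hredp : w.red (A * z ^ n) = w.red A * w.red z ^ n := by
    rw [NV.red_mul hA hzn, NV.red_pow hwz]
  have hord0 : ord x (w.red (A * z ^ n)) = 0 := by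
    rw [hredp, ord_mul x hrA0 (pow_ne_zero _ hζ0), ord_pow, hζ, hn]
    ring
  have hredne : w.red (A * z ^ n) ≠ 0 := by
    rw [hredp]
    exact mul_ne_zero hrA0 (pow_ne_zero _ hζ0)
  obtain ⟨α₀, hα₀⟩ := exists_cst x (z := w.red (A * z ^ n))
    ((mem_iff_ord x _).2 (Or.inr hord0.ge))
  have hα₀' : w.red (A * z ^ n) - algebraMap (kC C) (kap w) α₀ ∈ Mge x 1 := by
    rcases hα₀ with h1 | h1
    · rw [h1, sub_self]; exact Submodule.zero_mem _
    · exact Or.inr h1
  have hα₀ne : α₀ ≠ 0 := by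
    rintro rfl
    rw [map_zero, sub_zero, mem_Mge, hord0] at hα₀'
    rcases hα₀' with h1 | h1
    · exact hredne h1
    · omega
  obtain ⟨α, hα1, hαr⟩ := cred_surj α₀
  have hα : ‖α‖ = 1 := by
    refine le_antisymm hα1 (not_lt.1 fun h1 => hα₀ne ?_)
    rw [← hαr]
    exact (cred_eq_zero hα1).2 h1
  set a : K := A * z ^ n - algebraMap C K α with ha
  have haV : (L.V j0).valuation a < 1 := by
    rw [hLV]
    change (Vx w x.1).valuation a < 1
    have h1 : w (algebraMap C K α) ≤ 1 := by rw [w.ext']; exact hα1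
    rw [Vx_lt_one, pl_lt_iff, ha, NV.red_sub (NV.mul_le_one hA hzn) h1, NV.red_algebraMap hα1, hαr]
    exact ⟨NV.sub_le (NV.mul_le_one hA hzn) h1, hα₀'⟩
  -- a radius near one
  have hev1 := L.exists_psi (E := F0 C) (jj := jc) (l := fl C) (fun g hg => AA_ev_lt g hg) he
  have hev2 := L.ev_psi_lt (E := F0 C) (jj := jc) (l := fl C) (fun g hg => AA_ev_lt g hg) haV
  have hev3 : ∀ᶠ c : Cˣ in fl C, ‖l‖ ^ p * ‖(c : C)‖ ^ (-(n : ℤ)) < 1 := by
    have := ev_lead_lt (C := C) (a := l ^ p) (j := -(n : ℤ)) (Or.inl (by rw [norm_pow]; exact hlp1))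
    simpa only [norm_pow] using this
  obtain ⟨c, ⟨ψ, hψy, hψ⟩, hc2, hc3, hc0, hc1⟩ :=
    (hev1.and (hev2.and (hev3.and ev_lt1))).exists
  have hψa := hc2 ψ hψy hψ
  have hψC : ∀ b : C, ψ (algebraMap C K b) = algebraMap C (F0 C) b := by
    intro b
    rw [IsScalarTower.algebraMap_apply C (RatFunc C) K, hψ, jc_C]
  have hψz : ψ z = algebraMap C (F0 C) (c : C) * tt C := by
    rw [hX, hψ, jc_X]
  have hcne : algebraMap C (F0 C) (c : C) ≠ 0 := (_root_.map_ne_zero _).2 c.ne_zero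
  have hcK : algebraMap C K (c : C) ≠ 0 := (_root_.map_ne_zero _).2 c.ne_zero
  have hs : ψ (z / algebraMap C K (c : C)) = tt C := by
    rw [map_div₀, hψz, hψC, mul_div_cancel_left₀ _ hcne]
  obtain ⟨U, B, hB, hUB⟩ := near_psi hp h0 hl ψ hψC hy h
    (hN f hf hd _ _ (nvPsi_overG ψ hψC hs))
  set R : ℝ := ‖(c : C)‖ ^ (-(n : ℤ)) with hR
  have hRn : R = ‖((c : C)⁻¹) ^ n‖ := by
    rw [hR, zpow_neg, zpow_natCast, norm_pow, norm_inv, inv_pow]
  have hR1 : 1 < R := by
    rw [hR, zpow_neg, zpow_natCast]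
    exact (one_lt_inv₀ (pow_pos hc0 _)).2 (pow_lt_one₀ hc0.le hc1 (by omega))
  refine P025H680.core hp hpC hl hpn hR1 hc3 (κ := α * ((c : C)⁻¹) ^ n) (U := U) (A := ψ A)
    (B := B) ?_ hB ?_ hUB
  · rw [norm_mul, hα, one_mul, hRn]
  · -- `‖ψ A - α (c t)⁻ⁿ‖ < R`
    have htt : tt C ≠ 0 := tt_ne_zero
    have h1 : ψ A - algebraMap C (F0 C) (α * ((c : C)⁻¹) ^ n) * (tt C)⁻¹ ^ n =
        ψ a * (algebraMap C (F0 C) ((c : C)⁻¹ ^ n) * (tt C)⁻¹ ^ n) := by
      rw [ha, map_sub, map_mul ψ, map_pow ψ, hψz, hψC, map_mul (algebraMap C (F0 C)),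
        map_pow (algebraMap C (F0 C)), map_inv₀]
      have e1 : (algebraMap C (F0 C) (c : C) * tt C) ^ n *
          ((algebraMap C (F0 C) (c : C))⁻¹ ^ n * (tt C)⁻¹ ^ n) = 1 := by
        rw [← mul_pow, ← mul_pow]
        have e2 : algebraMap C (F0 C) (c : C) * tt C *
            ((algebraMap C (F0 C) (c : C))⁻¹ * (tt C)⁻¹) = 1 := by
          field_simp
        rw [e2, one_pow]
      linear_combination (-(ψ A)) * e1
    rw [h1, norm_mul, norm_mul, norm_algebraMap_C, norm_pow (tt C)⁻¹, norm_inv (tt C), norm_tt,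
      inv_one, one_pow, mul_one, ← hRn]
    exact mul_lt_of_lt_one_left (by linarith) hψa

/-- (7.3) (b): the reduction is unramified at all places of the residue field -/
theorem branch0 (hS : StabSum C K) (hv : ∀ r : ℝ, 0 ≤ r → ∃ x : C, ‖x‖ = r) {p : ℕ} (hp : p.Prime)
    (hpC : ‖(p : C)‖ < 1) (hN : Near C K p) {l : C} (hl : l ^ (p - 1) = -(p : C))
    {w : NV C K} [CFF (kC C) (kap w)] {f y A : K} (hf : f ≠ 0)
    (hd : P025H621.DivN C p f) (hA : w A ≤ 1) (hy : y ≠ 0)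
    (h : f = y ^ p * (1 + algebraMap C K l ^ p * A)) (x : Plk (kC C) (kap w)) :
    ∃ b : kap w, w.red A - (b ^ p - b) ∈ Mge x 0 := by
  have h0 : (p : C) ≠ 0 := by exact_mod_cast hp.ne_zero
  haveI : Fact p.Prime := ⟨hp⟩
  haveI : CharP (kap w) p := charP_kap' hp hpC w
  rcases P025H992.exists_normal (p := p) x (w.red A) with ⟨b, hb⟩ | ⟨β, hβ1, hβ2⟩
  · exact ⟨b, mem_iff_Mge.1 hb⟩
  · exfalso
    obtain ⟨b, hb, rfl⟩ := NV.red_surj β
    obtain ⟨y', A', hy', hA', hf', hr⟩ := twist hp hpC h0 hl hy hA hb h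
    rw [← hr] at hβ1 hβ2
    exact hβ2 (no_pole hS hv hp hpC hN hl hf hd hA' hy' hf' x hβ1)

/-- (7.3) (b): the reduction is unramified at all places of the residue field -/
theorem branch (hS : StabSum C K) (hv : ∀ r : ℝ, 0 ≤ r → ∃ x : C, ‖x‖ = r) {p : ℕ} (hp : p.Prime)
    (hpC : ‖(p : C)‖ < 1) (hN : Near C K p) {l : C} (hl : l ^ (p - 1) = -(p : C)) {T : K}
    {w : NV C K} (_hw : w.OverG T) [CFF (kC C) (kap w)] {f y A : K} (hf : f ≠ 0)
    (hd : P025H621.DivN C p f) (hA : w A ≤ 1) (hy : y ≠ 0)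
    (h : f = y ^ p * (1 + algebraMap C K l ^ p * A)) (x : Plk (kC C) (kap w)) :
    ∃ b : kap w, w.red A - (b ^ p - b) ∈ Mge x 0 :=
  branch0 hS hv hp hpC hN hl hf hd hA hy h x

/-- the constant term can be removed -/
theorem branch' (hS : StabSum C K) (hv : ∀ r : ℝ, 0 ≤ r → ∃ x : C, ‖x‖ = r) {p : ℕ}
    (hp : p.Prime) (hpC : ‖(p : C)‖ < 1) (hN : Near C K p) {l : C} (hl : l ^ (p - 1) = -(p : C))
    {w : NV C K} [CFF (kC C) (kap w)] {f y A : K} (hf : f ≠ 0)
    (hd : P025H621.DivN C p f) (hA : w A ≤ 1) (hy : y ≠ 0)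
    (h : f = y ^ p * (1 + algebraMap C K l ^ p * A)) (x : Plk (kC C) (kap w)) :
    ∃ y' A' : K, y' ≠ 0 ∧ f = y' ^ p * (1 + algebraMap C K l ^ p * A') ∧
      (Vx w x.1).valuation A' < 1 := by
  have h0 : (p : C) ≠ 0 := by exact_mod_cast hp.ne_zero
  haveI : Fact p.Prime := ⟨hp⟩
  haveI : CharP (kap w) p := charP_kap' hp hpC w
  obtain ⟨β, hβ⟩ := branch0 hS hv hp hpC hN hl hf hd hA hy h x
  obtain ⟨c, hc⟩ := exists_cst x (mem_iff_Mge.2 hβ)
  obtain ⟨d, hd'⟩ := P025H992.exists_wp_const (F := kap w) (p := p) (k := kC C) c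
  obtain ⟨b, hb, hbr⟩ := NV.red_surj (β + algebraMap (kC C) (kap w) d)
  obtain ⟨y', A', hy', hA', hf', hr⟩ := twist hp hpC h0 hl hy hA hb h
  refine ⟨y', A', hy', hf', ?_⟩
  rw [Vx_lt_one, pl_lt_iff]
  refine ⟨hA', ?_⟩
  have h1 : w.red A' = w.red A - (β ^ p - β) - algebraMap (kC C) (kap w) c := by
    rw [hr, hbr, add_pow_char, ← map_pow, ← hd', map_sub]
    ring
  rw [h1, mem_Mge]
  rcases hc with hc | hc
  · left
    rw [hc, sub_self]
  · right
    omega

/-- (7.3) (a) = `P025H621.SplitNear` : `f` is split just outside of every disc. -/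
theorem splitNear (hS : StabSum C K) (hv : ∀ r : ℝ, 0 ≤ r → ∃ x : C, ‖x‖ = r) {p : ℕ}
    (hp : p.Prime) (hpC : ‖(p : C)‖ < 1) (hN : Near C K p) :
    ∀ f : K, f ≠ 0 → P025H621.DivN C p f → ∀ (t : K), Transcendental C t → ∀ (a b : C), b ≠ 0 →
    ∃ r₁, ‖b‖ < r₁ ∧ ∀ b' : C, ‖b‖ < ‖b'‖ → ‖b'‖ < r₁ → ∀ w : NV C K,
      w.OverG ((t - algebraMap C K a) / algebraMap C K b') → SplitW p w f := by
  intro f hf hd t ht a b hb
  have h0 : (p : C) ≠ 0 := by exact_mod_cast hp.ne_zero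
  obtain ⟨l, hl⟩ := IsAlgClosed.exists_pow_nat_eq (-(p : C)) (n := p - 1)
    (Nat.sub_pos_of_lt hp.one_lt)
  have hbK : algebraMap C K b ≠ 0 := (_root_.map_ne_zero _).2 hb
  have hta : Transcendental C (t - algebraMap C K a) := by
    intro h1
    apply ht
    have h2 := h1.add (isAlgebraic_algebraMap a (R := C) (A := K))
    rwa [sub_add_cancel] at h2
  have hta0 : t - algebraMap C K a ≠ 0 := fun h1 => hta (h1 ▸ isAlgebraic_zero)
  set z : K := algebraMap C K b / (t - algebraMap C K a) with hz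
  have hztr : Transcendental C z := by
    intro h1
    apply hta
    have h2 : t - algebraMap C K a = algebraMap C K b * z⁻¹ := by
      rw [hz, inv_div, mul_div_cancel₀ _ hbK]
    rw [h2]
    exact (isAlgebraic_algebraMap b).mul h1.inv
  haveI : FiniteDimensional C⟮z⟯ K := CFld_finite hztr
  letI : Algebra (RatFunc C) K := ratAlg z hztr
  haveI : IsScalarTower C (RatFunc C) K := ratAlg_tower z hztr
  have hX : z = algebraMap (RatFunc C) K RatFunc.X := (ratAlg_X z hztr).symm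
  haveI : (fl C).NeBot := fl_neBot C hv
  obtain ⟨L, hLV, hLe⟩ := exists_lat hX (hS z hztr)
  have hform : ∀ j : Jz C z, ∃ y' A' : K, y' ≠ 0 ∧
      f = y' ^ p * (1 + algebraMap C K l ^ p * A') ∧ (L.V j).valuation A' < 1 := by
    intro j
    obtain ⟨y, A, hy, hA, hfy⟩ := (hN f hf hd z j.w.1 j.w.2).exists_form hp h0 hl
    rw [hLV]
    exact branch' hS hv hp hpC hN hl hf hd hA hy hfy j.x.1
  choose y' A' hy' hf' hA' using hform
  haveI : Nonempty (Jz C z) := by
    have hpos : 0 < Module.finrank (RatFunc C) K := by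
      haveI : FiniteDimensional (RatFunc C) K := (finite_rat hX).2 inferInstance
      exact Module.finrank_pos
    rw [L.fin] at hpos
    by_contra hemp
    rw [not_nonempty_iff] at hemp
    rw [Finset.univ_eq_empty, Finset.sum_empty] at hpos
    exact lt_irrefl _ hpos
  have hev := L.ev_cover (l := fl C) (ν := fun c g => ‖jc c g‖) (fun g hg => AA_ev_lt g hg) hA'
  have hev2 : ∀ᶠ c : Cˣ in fl C, ∀ w : NV C K, w.OverG (z / algebraMap C K (c : C)) →
      SplitW p w f := by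
    filter_upwards [hev] with c hc w hw
    obtain ⟨j, hj⟩ := hc w.av w.na (fun g => norm_over (hX ▸ hw) g)
    refine ⟨y' j, hy' j, ?_⟩
    have hl0 : 0 < ‖l‖ := norm_l_pos hp h0 hl
    have h1 : f / y' j ^ p - 1 = algebraMap C K l ^ p * A' j := by
      have : y' j ^ p ≠ 0 := pow_ne_zero _ (hy' j)
      rw [div_sub_one this, div_eq_iff this]
      conv_lhs => rw [hf' j]
      ring
    rw [h1]
    refine pow_lt_of_lt' hp hl (w.av.nonneg _) ?_
    rw [map_mul, map_pow, w.ext']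
    exact mul_lt_of_lt_one_right (pow_pos hl0 _) hj
  -- back to radii
  have hev3 : ∃ ρ₀ : ℝ, 0 < ρ₀ ∧ ρ₀ < 1 ∧ ∀ c : Cˣ, ρ₀ < ‖(c : C)‖ → ‖(c : C)‖ < 1 →
      ∀ w : NV C K, w.OverG (z / algebraMap C K (c : C)) → SplitW p w f := by
    rw [fl, Filter.eventually_comap] at hev2
    rw [eventually_nhdsWithin_iff, Metric.eventually_nhds_iff] at hev2
    obtain ⟨ε, hε, hε2⟩ := hev2
    refine ⟨max (1 - ε) (1 / 2), by positivity, by
      rw [max_lt_iff]; exact ⟨by linarith, by norm_num⟩, fun c hc1 hc2 w hw => ?_⟩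
    refine hε2 (y := ‖(c : C)‖) ?_ hc2 c rfl w hw
    rw [Real.dist_eq, abs_sub_comm, abs_of_pos (by linarith)]
    have := (le_max_left (1 - ε) (1 / 2)).trans_lt hc1
    linarith
  obtain ⟨ρ₀, hρ0, hρ1, hρ⟩ := hev3
  have hbp : 0 < ‖b‖ := norm_pos_iff.2 hb
  refine ⟨‖b‖ / ρ₀, ?_, fun b' hb1 hb2 w hw => ?_⟩
  · rw [lt_div_iff₀ hρ0]
    exact mul_lt_of_lt_one_right hbp hρ1
  · have hb'p : 0 < ‖b'‖ := hbp.trans hb1
    have hb' : b' ≠ 0 := norm_pos_iff.1 hb'p
    have hb'K : algebraMap C K b' ≠ 0 := (_root_.map_ne_zero _).2 hb'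
    refine hρ (Units.mk0 (b / b') (div_ne_zero hb hb')) ?_ ?_ w ?_
    · change ρ₀ < ‖b / b'‖
      rw [norm_div, lt_div_iff₀ hb'p]
      rw [lt_div_iff₀ hρ0] at hb2
      linarith
    · change ‖b / b'‖ < 1
      rw [norm_div, div_lt_one hb'p]
      exact hb1
    · change w.OverG (z / algebraMap C K (b / b'))
      have h1 : z / algebraMap C K (b / b') =
          ((t - algebraMap C K a) / algebraMap C K b')⁻¹ := by
        rw [hz, map_div₀]
        field_simp
      rw [h1]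
      exact hw.inv

end Main

end

end P025H497
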