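import Mathlib

/-! # Eigenvector of a matrix near a rank one idempotent, and the character of a commutative ring -/

open Matrix

namespace P025H497

section eig

variable {E : Type*} [NormedField E] [IsUltrametricDist E] {ι : Type*} [Fintype ι] [DecidableEq ι]

/-- the matrix with a single entry one at `p0, p0`. -/
def E1 (p0 : ι) (p q : ι) : E := if p = p0 ∧ q = p0 then 1 else 0

lemma mulVec_eq (M : Matrix ι ι E) (p0 : ι) (v : ι → E) (p : ι) :
    (M *ᵥ v) p = (if p = p0 then v p0 else 0) + ∑ q, (M p q - E1 p0 p q) * v q := by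
  have h1 : ∑ q, (M p q - E1 p0 p q) * v q = (M *ᵥ v) p - ∑ q, E1 p0 p q * v q := by
    simp only [sub_mul, Finset.sum_sub_distrib, mulVec, dotProduct]
  have h2 : ∑ q, (E1 p0 p q : E) * v q = if p = p0 then v p0 else 0 := by
    unfold E1
    by_cases hp : p = p0
    · simp [hp]
    · simp [hp]
  rw [h1, h2]; ring

variable (M : Matrix ι ι E) (p0 : ι) {δ : ℝ} (hδ : ∀ p q, ‖M p q - E1 p0 p q‖ ≤ δ) (hδ0 : 0 ≤ δ)

include hδ hδ0 in
lemma norm_N_le (v : ι → E) {r : ℝ} (hr : 0 ≤ r) (hv : ∀ q, ‖v q‖ ≤ r) (p : ι) :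
    ‖∑ q, (M p q - E1 p0 p q) * v q‖ ≤ δ * r := by
  refine IsUltrametricDist.norm_sum_le_of_forall_le_of_nonneg (by positivity) fun q _ => ?_
  rw [norm_mul]
  exact mul_le_mul (hδ p q) (hv q) (norm_nonneg _) hδ0

variable [CompleteSpace E]

include hδ hδ0 in
theorem exists_eig (hδ1 : δ < 1) : ∃ (v : ι → E) (lam : E), v p0 = 1 ∧ (∀ q, ‖v q‖ ≤ 1) ∧
    ‖lam - 1‖ < 1 ∧ M *ᵥ v = lam • v := by
  set S : Set (ι → E) := {v | v p0 = 1 ∧ ∀ p, p ≠ p0 → ‖v p‖ ≤ δ} with hS
  have hSv : ∀ v ∈ S, ∀ q, ‖v q‖ ≤ 1 := by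
    rintro v ⟨h1, h2⟩ q
    by_cases hq : q = p0
    · rw [hq, h1, norm_one]
    · exact (h2 q hq).trans hδ1.le
  have hclosed : IsClosed S := by
    have : S = {v | v p0 = 1} ∩ ⋂ p, {v | p ≠ p0 → ‖v p‖ ≤ δ} := by
      ext v; simp [hS]
    rw [this]
    refine (isClosed_eq (continuous_apply p0) continuous_const).inter (isClosed_iInter fun p => ?_)
    by_cases hp : p = p0
    · simp [hp]
    · simp only [ne_eq, hp, not_false_eq_true, true_imp_iff]
      exact isClosed_le (continuous_apply p).norm continuous_const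
  set T : (ι → E) → (ι → E) := fun v p => (M *ᵥ v) p / (M *ᵥ v) p0 with hT
  have ha1 : ∀ v ∈ S, ‖(M *ᵥ v) p0 - 1‖ ≤ δ := by
    rintro v hv
    rw [mulVec_eq M p0, if_pos rfl, hv.1, add_sub_cancel_left]
    simpa using norm_N_le M p0 hδ hδ0 v zero_le_one (hSv v hv) p0
  have ha : ∀ v ∈ S, ‖(M *ᵥ v) p0‖ = 1 := by
    intro v hv
    have h1 : ‖(M *ᵥ v) p0 - 1‖ < ‖(1 : E)‖ := by rw [norm_one]; exact (ha1 v hv).trans_lt hδ1
    have := IsUltrametricDist.norm_eq_of_add_norm_lt_max (x := (M *ᵥ v) p0 - 1) (y := 1)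
    have h2 := IsUltrametricDist.norm_add_eq_max_of_norm_ne_norm h1.ne
    rw [sub_add_cancel, max_eq_right h1.le, norm_one] at h2
    exact h2
  have hp : ∀ v ∈ S, ∀ p, p ≠ p0 → ‖(M *ᵥ v) p‖ ≤ δ := by
    intro v hv p hp
    rw [mulVec_eq M p0, if_neg hp, zero_add]
    simpa using norm_N_le M p0 hδ hδ0 v zero_le_one (hSv v hv) p
  have hne : ∀ v ∈ S, (M *ᵥ v) p0 ≠ 0 := by
    intro v hv h
    have := ha v hv
    rw [h, norm_zero] at this
    exact zero_ne_one this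
  have hmaps : Set.MapsTo T S S := by
    intro v hv
    refine ⟨div_self (hne v hv), fun p hpp => ?_⟩
    simp only [hT]
    rw [norm_div, ha v hv, div_one]
    exact hp v hv p hpp
  have hM1 : ∀ v ∈ S, ∀ p, ‖(M *ᵥ v) p‖ ≤ 1 := by
    intro v hv p
    by_cases h : p = p0
    · rw [h, ha v hv]
    · exact (hp v hv p h).trans hδ1.le
  have hdiff : ∀ v ∈ S, ∀ u ∈ S, ∀ p, ‖(M *ᵥ v) p - (M *ᵥ u) p‖ ≤ δ * dist v u := by
    intro v hv u hu p
    have h1 : (M *ᵥ v) p - (M *ᵥ u) p = ∑ q, (M p q - E1 p0 p q) * (v q - u q) := by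
      rw [mulVec_eq M p0 v, mulVec_eq M p0 u, hv.1, hu.1]
      simp only [mul_sub, Finset.sum_sub_distrib]
      ring
    rw [h1]
    refine norm_N_le M p0 hδ hδ0 (fun q => v q - u q) dist_nonneg (fun q => ?_) p
    rw [← dist_eq_norm]
    exact dist_le_pi_dist v u q
  have hcon : ContractingWith ⟨δ, hδ0⟩ (hmaps.restrict T _ _) := by
    refine ⟨by exact_mod_cast hδ1, ?_⟩
    refine LipschitzWith.of_dist_le_mul fun v u => ?_
    rw [Subtype.dist_eq, Subtype.dist_eq]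
    change dist (T v) (T u) ≤ δ * dist (v : ι → E) u
    rw [dist_pi_le_iff (by positivity)]
    intro p
    have hv := v.2
    have hu := u.2
    have h1 : T v p - T u p = (((M *ᵥ v) p - (M *ᵥ u) p) * (M *ᵥ u) p0 -
        (M *ᵥ u) p * ((M *ᵥ v) p0 - (M *ᵥ u) p0)) / ((M *ᵥ v) p0 * (M *ᵥ u) p0) := by
      simp only [hT]
      have e1 := hne v hv
      have e2 := hne u hu
      field_simp
      ring
    rw [dist_eq_norm, h1, norm_div, norm_mul ((M *ᵥ v) p0), ha v hv, ha u hu, mul_one, div_one]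
    rw [sub_eq_add_neg]
    refine (IsUltrametricDist.norm_add_le_max _ _).trans (max_le ?_ ?_)
    · rw [norm_mul, ha u hu, mul_one]
      exact hdiff v hv u hu p
    · rw [norm_neg, norm_mul]
      calc ‖(M *ᵥ u) p‖ * ‖(M *ᵥ v) p0 - (M *ᵥ u) p0‖ ≤ 1 * (δ * dist (v : ι → E) u) := by
            gcongr
            · exact hM1 u hu p
            · exact hdiff v hv u hu p0
        _ = _ := one_mul _
  obtain ⟨v, hv, hfix, -⟩ := hcon.exists_fixedPoint' hclosed.isComplete hmaps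
    (x := fun q => if q = p0 then 1 else 0) ⟨by simp, fun p hp => by simp [hp, hδ0]⟩
    (edist_ne_top _ _)
  refine ⟨v, (M *ᵥ v) p0, hv.1, hSv v hv, (ha1 v hv).trans_lt hδ1, ?_⟩
  have h3 : T v = v := hfix
  ext p
  have h4 := congrFun h3 p
  simp only [hT] at h4
  rw [div_eq_iff (hne v hv)] at h4
  rw [h4, Pi.smul_apply, smul_eq_mul, mul_comm]

omit [CompleteSpace E] in
include hδ hδ0 in
theorem eig_unique (hδ1 : δ < 1) {v : ι → E} {lam : E} (hv : v p0 = 1) (hlam : ‖lam‖ = 1)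
    (h : M *ᵥ v = lam • v) {u : ι → E} (hu : M *ᵥ u = lam • u) : u = u p0 • v := by
  set z : ι → E := u - u p0 • v with hz
  have hz0 : z p0 = 0 := by simp [hz, hv]
  have hMz : M *ᵥ z = lam • z := by
    rw [hz, mulVec_sub, mulVec_smul, hu, h, smul_sub, smul_comm]
  have : z = 0 := by
    by_contra hne
    obtain ⟨p1, hp1⟩ := Function.ne_iff.1 hne
    obtain ⟨p, -, hp⟩ := Finset.exists_max_image Finset.univ (fun p => ‖z p‖) ⟨p1, Finset.mem_univ _⟩
    have hpos : 0 < ‖z p‖ := (norm_pos_iff.2 hp1).trans_le (hp p1 (Finset.mem_univ _))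
    have h1 := congrFun hMz p
    rw [mulVec_eq M p0, hz0, ite_self, zero_add, Pi.smul_apply, smul_eq_mul] at h1
    have h2 := norm_N_le M p0 hδ hδ0 z hpos.le (fun q => hp q (Finset.mem_univ _)) p
    rw [h1, norm_mul, hlam, one_mul] at h2
    nlinarith
  rw [hz, sub_eq_zero] at this
  exact this

end eig

section char

variable {E : Type*} [NormedField E] [IsUltrametricDist E] [CompleteSpace E]
  {ι : Type*} [Fintype ι] [DecidableEq ι] {K : Type*} [CommRing K]

/-- a commutative ring of matrices containing one near a rank one idempotent has a character. -/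
theorem exists_char (R : K →+* Matrix ι ι E) (p0 : ι) (y : K)
    (hy : ∀ p q, ‖R y p q - E1 p0 p q‖ < 1) :
    ∃ ψ : K →+* E, ‖ψ y - 1‖ < 1 ∧ ∀ (a : K) (c : E), R a = c • (1 : Matrix ι ι E) → ψ a = c := by
  obtain ⟨pq, -, hpq⟩ := Finset.exists_max_image Finset.univ
    (fun p : ι × ι => ‖R y p.1 p.2 - E1 p0 p.1 p.2‖) ⟨(p0, p0), Finset.mem_univ _⟩
  set δ := ‖R y pq.1 pq.2 - E1 p0 pq.1 pq.2‖ with hδd
  have hδ : ∀ p q, ‖R y p q - E1 p0 p q‖ ≤ δ := fun p q => hpq (p, q) (Finset.mem_univ _)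
  have hδ1 : δ < 1 := hy _ _
  have hδ0 : 0 ≤ δ := norm_nonneg _
  obtain ⟨v, lam, hv, hv1, hlam, hMv⟩ := exists_eig (R y) p0 hδ hδ0 hδ1
  have hlam1 : ‖lam‖ = 1 := by
    have h1 : ‖lam - 1‖ < ‖(1 : E)‖ := by rwa [norm_one]
    have h2 := IsUltrametricDist.norm_add_eq_max_of_norm_ne_norm h1.ne
    rw [sub_add_cancel, max_eq_right h1.le, norm_one] at h2
    exact h2
  have hev : ∀ a, R a *ᵥ v = (R a *ᵥ v) p0 • v := by
    intro a
    refine eig_unique (R y) p0 hδ hδ0 hδ1 hv hlam1 hMv ?_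
    rw [mulVec_mulVec, ← map_mul, mul_comm, map_mul, ← mulVec_mulVec, hMv, mulVec_smul]
  let ψ : K →+* E :=
    { toFun := fun a => (R a *ᵥ v) p0
      map_one' := by rw [map_one, one_mulVec, hv]
      map_mul' := fun a b => by
        have h2 : R (a * b) *ᵥ v = (R b *ᵥ v) p0 • (R a *ᵥ v) := by
          rw [map_mul, ← mulVec_mulVec]
          conv_lhs => rw [hev b]
          rw [mulVec_smul]
        rw [h2, Pi.smul_apply, smul_eq_mul, mul_comm]
      map_zero' := by rw [map_zero, zero_mulVec, Pi.zero_apply]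
      map_add' := fun a b => by rw [map_add, add_mulVec, Pi.add_apply] }
  refine ⟨ψ, ?_, fun a c ha => ?_⟩
  · change ‖(R y *ᵥ v) p0 - 1‖ < 1
    rw [hMv, Pi.smul_apply, hv, smul_eq_mul, mul_one]
    exact hlam
  · change (R a *ᵥ v) p0 = c
    rw [ha, smul_mulVec, one_mulVec, Pi.smul_apply, hv, smul_eq_mul, mul_one]

end char

end P025H497
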