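import Vale.Agent.P025.R2.H497.Nrm
import Vale.Agent.P025.R2.H497.Eig

/-! # Branches: characters `K → E` near an unramified point `V j0` -/

open Module Filter Matrix

namespace P025H497

/-- the absolute value of a ring homomorphism into a normed field. -/
noncomputable def absOf {K E : Type*} [Field K] [NormedField E] (ψ : K →+* E) :
    AbsoluteValue K ℝ where
  toFun a := ‖ψ a‖
  map_mul' a b := by rw [map_mul, norm_mul]
  nonneg' _ := norm_nonneg _
  eq_zero' a := by simp
  add_le' a b := by rw [map_add]; exact norm_add_le _ _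

@[simp] lemma absOf_apply {K E : Type*} [Field K] [NormedField E] (ψ : K →+* E) (a : K) :
    absOf ψ a = ‖ψ a‖ := rfl

lemma absOf_na {K E : Type*} [Field K] [NormedField E] [IsUltrametricDist E] (ψ : K →+* E) :
    IsNonarchimedean (absOf ψ) := by
  intro a b
  change ‖ψ (a + b)‖ ≤ max ‖ψ a‖ ‖ψ b‖
  rw [map_add]
  exact IsUltrametricDist.norm_add_le_max _ _

namespace Lat

variable {F K : Type*} [Field F] [Field K] [Algebra F K] {A : ValuationSubring F} {t : F}
  {J : Type*} [Fintype J] (L : Lat F K A t J) [Nonempty J]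
  {E : Type*} [NormedField E] [IsUltrametricDist E]
  {I : Type*} {l : Filter I} {jj : I → F →+* E}

lemma sub_om_le [DecidableEq J] (j0 : J) (q : L.Ix) (j : J) :
    (L.V j).valuation (L.y j0 * L.om q - (if q.1 = j0 then (1 : K) else 0) * L.om q) ≤
      (L.V j).valuation (algebraMap F K t) := by
  by_cases hq : q.1 = j0
  · rw [if_pos hq, ← sub_mul, map_mul]
    by_cases hj : j = j0
    · subst hj
      exact (mul_le_of_le_one_right' (L.om_le _ _)).trans (L.y1 j)
    · have h1 : (L.V j).valuation (L.y j0 - 1) ≤ 1 :=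
        Valuation.map_sub_le _ (L.y_le _ _) (by rw [map_one])
      refine (mul_le_of_le_one_left' h1).trans ?_
      unfold om
      rw [map_mul, map_pow]
      refine (mul_le_of_le_one_right' (pow_le_one' (L.piV _ _) _)).trans ?_
      rw [hq]
      exact L.y0 j0 j hj
  · rw [if_neg hq, zero_mul, sub_zero, map_mul]
    by_cases hj : j = j0
    · subst hj
      refine (mul_le_of_le_one_left' (L.y_le _ _)).trans ?_
      unfold om
      rw [map_mul, map_pow]
      refine (mul_le_of_le_one_right' (pow_le_one' (L.piV _ _) _)).trans ?_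
      exact L.y0 q.1 j (Ne.symm hq)
    · exact (mul_le_of_le_one_right' (L.om_le _ _)).trans (L.y0 j0 j hj)

variable [CompleteSpace E]

theorem exists_psi (hlt : ∀ a, A.valuation a < 1 → ∀ᶠ i in l, ‖jj i a‖ < 1) {j0 : J}
    (he : L.e j0 = 1) : ∀ᶠ i in l, ∃ ψ : K →+* E, ‖ψ (L.y j0) - 1‖ < 1 ∧
      ∀ g : F, ψ (algebraMap F K g) = jj i g := by
  classical
  set p0 : L.Ix := ⟨j0, ⟨0, L.e_pos j0⟩⟩ with hp0
  have hp : ∀ p : L.Ix, p.1 = j0 → p = p0 := by
    rintro ⟨j, l⟩ h
    dsimp only at h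
    subst h
    rw [hp0]
    congr 1
    apply Fin.ext
    have := l.2.trans_eq he
    change (l : ℕ) = 0
    omega
  have h1 : ∀ p q, A.valuation (L.mat (L.y j0) p q - (if p = p0 ∧ q = p0 then 1 else 0)) < 1 := by
    intro p q
    have h2 : L.mat (L.y j0) p q - (if p = p0 ∧ q = p0 then 1 else 0) =
        L.bas.repr (L.y j0 * L.om q - (if q.1 = j0 then (1 : K) else 0) * L.om q) p := by
      rw [map_sub, Finsupp.sub_apply]
      congr 1
      by_cases hq : q.1 = j0
      · rw [if_pos hq, one_mul, ← L.bas_apply, Basis.repr_self, Finsupp.single_apply]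
        rw [hp q hq]
        by_cases hpp : p = p0
        · simp [hpp]
        · rw [if_neg (fun h => hpp h.1), if_neg (fun h => hpp h.symm)]
      · have hq' : q ≠ p0 := fun h => hq (by rw [h])
        rw [if_neg hq, zero_mul, map_zero, if_neg (fun h => hq' h.2), Finsupp.zero_apply]
    rw [h2]
    exact L.repr_lt (fun j => L.sub_om_le j0 q j) p
  have h3 : ∀ᶠ i in l, ∀ p q,
      ‖jj i (L.mat (L.y j0) p q - (if p = p0 ∧ q = p0 then 1 else 0))‖ < 1 := by
    rw [eventually_all]; intro p
    rw [eventually_all]; intro q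
    exact hlt _ (h1 p q)
  filter_upwards [h3] with i hi
  obtain ⟨ψ, h4, h5⟩ := exists_char
    ((jj i).mapMatrix.comp (Algebra.leftMulMatrix L.bas).toRingHom) p0 (L.y j0) (fun p q => by
      have h6 : ((jj i).mapMatrix.comp (Algebra.leftMulMatrix L.bas).toRingHom) (L.y j0) p q -
          E1 p0 p q = jj i (L.mat (L.y j0) p q - (if p = p0 ∧ q = p0 then 1 else 0)) := by
        rw [map_sub, E1]
        congr 1
        · simp [Algebra.leftMulMatrix_eq_repr_mul, mat]
        · split_ifs <;> simp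
      rw [h6]
      exact hi p q)
  refine ⟨ψ, h4, fun g => h5 _ _ ?_⟩
  have h7 : Algebra.leftMulMatrix L.bas (algebraMap F K g) = algebraMap F (Matrix L.Ix L.Ix F) g :=
    AlgHom.commutes _ _
  change (jj i).mapMatrix (Algebra.leftMulMatrix L.bas (algebraMap F K g)) = _
  rw [h7, Matrix.algebraMap_eq_diagonal]
  ext p q
  by_cases hpq : p = q
  · subst hpq
    simp
  · simp [hpq]

omit [CompleteSpace E] in
theorem ev_psi_lt (hlt : ∀ a, A.valuation a < 1 → ∀ᶠ i in l, ‖jj i a‖ < 1) {j0 : J}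
    {a : K} (ha : (L.V j0).valuation a < 1) : ∀ᶠ i in l, ∀ ψ : K →+* E,
      ‖ψ (L.y j0) - 1‖ < 1 → (∀ g : F, ψ (algebraMap F K g) = jj i g) → ‖ψ a‖ < 1 := by
  obtain ⟨k, hk⟩ := L.exists_small ha
  filter_upwards [L.ev_lt (ν := fun i g => ‖jj i g‖) hlt hk] with i hi ψ h1 h2
  have h3 := hi (absOf ψ) (absOf_na ψ) (fun g => by rw [absOf_apply, h2])
  have h4 : ‖ψ (L.y j0)‖ = 1 := by
    have h5 : ‖ψ (L.y j0) - 1‖ < ‖(1 : E)‖ := by rwa [norm_one]
    have h6 := IsUltrametricDist.norm_add_eq_max_of_norm_ne_norm h5.ne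
    rw [sub_add_cancel, max_eq_right h5.le, norm_one] at h6
    exact h6
  rw [absOf_apply, map_mul, map_pow, norm_mul, norm_pow, h4, one_pow, one_mul] at h3
  exact h3

end Lat

end P025H497
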