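import Vale.Agent.P025.R2.H497.VExt
import Vale.Agent.P025.R2.H361.Cont
import Vale.Agent.P025.R2.H720.KK

/-!
# P025 A-END (helper497): every place of `N` with a pole of `T` lies in a `D`-vertex
-/

open Polynomial IntermediateField
open scoped TensorProduct

universe u v w

namespace P025H497

open P025H373 P025H544 P025H505 P025H720

section Om

variable (C : Type u) [NontriviallyNormedField C] [IsUltrametricDist C] [CompleteSpace C]
  [IsAlgClosed C]

/-- `t` as an element of `F2 C` -/
noncomputable def t2 : F2 C := algebraMap (RatFunc C) (F2 C) RatFunc.X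

theorem coe_t2 : ((t2 C : F2 C) : F0 C) = tt C := rfl

/-- a valuation ring of a field over `F2 C` containing `A2 C` and not containing `t`. -/
theorem exists_inf {Ω : Type*} [Field Ω] (f : F2 C →+* Ω) : ∃ O : ValuationSubring Ω,
    (∀ x : F2 C, (x : F0 C) ∈ A2 C → f x ∈ O) ∧ f (t2 C) ∉ O := by
  let i : A2 C →+* F2 C := (A2 C).val.toRingHom.codRestrict (F2 C).toSubfield.toSubring
    (fun x => A2_le_F2 x.2)
  have hi : ∀ x : A2 C, ((i x : F2 C) : F0 C) = x := fun x => rfl
  have hinj : Function.Injective (f.comp i) :=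
    f.injective.comp fun x y h => Subtype.ext (by rw [← hi x, h, hi y])
  obtain ⟨O, h1, h2⟩ := exists_dom (f.comp i) hinj (RingHom.ker (evInf C).toRingHom) (by
    rw [Ne, Ideal.eq_top_iff_one, RingHom.mem_ker]
    intro h
    have : evInf C 1 = 0 := h
    rw [map_one] at this
    exact one_ne_zero this)
  refine ⟨O, fun x hx => h1 ⟨x, hx⟩, fun hO => ?_⟩
  have h3 := h2 ⟨(tt C)⁻¹, inv_tt_mem_A2⟩ (by
    rw [RingHom.mem_ker]
    change evInf C _ = 0
    rw [evInf_eq_zero_iff]
    change tt C * (tt C)⁻¹ ∈ A2 C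
    rw [mul_inv_cancel₀ tt_ne_zero]
    exact one_mem _)
  have h4 : f.comp i ⟨(tt C)⁻¹, inv_tt_mem_A2⟩ = (f (t2 C))⁻¹ := by
    rw [← map_inv₀]
    change f _ = f _
    congr 1
  have h5 : f (t2 C) ≠ 0 := by
    rw [Ne, map_eq_zero]
    intro h
    have := congrArg (fun z : F2 C => (z : F0 C)) h
    exact tt_ne_zero this
  rw [h4, map_inv₀] at h3
  have h6 : 0 < O.valuation (f (t2 C)) := zero_lt_iff.2 ((Valuation.ne_zero_iff _).2 h5)
  exact absurd ((inv_lt_one₀ h6).1 h3) (not_lt.2 ((O.valuation_le_one_iff _).2 hO))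

end Om

section embR

variable {k E : Type*} [Field k] [Field E] [Algebra k E]

/-- the embedding `k(t) → E`, `t ↦ T`. -/
noncomputable def embR (T : E) (hT : Transcendental k T) : RatFunc k →ₐ[k] E :=
  IsFractionRing.liftAlgHom (g := (aeval T : k[X] →ₐ[k] E)) (transcendental_iff_injective.1 hT)

@[simp] theorem embR_algebraMap (T : E) (hT : Transcendental k T) (P : k[X]) :
    embR T hT (algebraMap k[X] (RatFunc k) P) = aeval T P := by
  simp [embR, IsFractionRing.liftAlgHom_apply]

@[simp] theorem embR_X (T : E) (hT : Transcendental k T) : embR T hT RatFunc.X = T := by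
  rw [← RatFunc.algebraMap_X, embR_algebraMap, aeval_X]

end embR

section alg

variable {kb : Type v} {N : Type w} [Field kb] [Field N] [Algebra kb N]

/-- `N` is algebraic over `kb(T)` -/
theorem isAlgebraic_ratFunc [TrdegOne kb N] {T : N} (hT : Transcendental kb T) :
    letI := (embR T hT).toRingHom.toAlgebra
    Algebra.IsAlgebraic (RatFunc kb) N := by
  letI := (embR T hT).toRingHom.toAlgebra
  refine ⟨fun x => ?_⟩
  obtain ⟨P, hP0, hP⟩ := TrdegOne.alg T x hT
  let e := Polynomial.algEquivOfTranscendental kb T hT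
  let g : Algebra.adjoin kb {T} →+* RatFunc kb :=
    (algebraMap kb[X] (RatFunc kb)).comp e.symm.toRingEquiv.toRingHom
  have hg : Function.Injective g := (RatFunc.algebraMap_injective kb).comp e.symm.injective
  have hgN : (algebraMap (RatFunc kb) N).comp g = algebraMap (Algebra.adjoin kb {T}) N := by
    refine RingHom.ext fun y => ?_
    obtain ⟨Q, rfl⟩ := e.surjective y
    change embR T hT (algebraMap kb[X] (RatFunc kb) (e.symm (e Q))) = ((e Q : _) : N)
    rw [AlgEquiv.symm_apply_apply, embR_algebraMap]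
    have := Polynomial.aeval_algebraMap_apply N
      (⟨T, Algebra.self_mem_adjoin_singleton kb T⟩ : Algebra.adjoin kb {T}) Q
    rw [Polynomial.algEquivOfTranscendental_apply]
    exact this
  refine ⟨P.map g, (Polynomial.map_ne_zero_iff hg).2 hP0, ?_⟩
  rw [aeval_def, eval₂_map, hgN]
  exact hP

end alg

section main

variable {C : Type u} {kb : Type v} {N : Type w}
  [NontriviallyNormedField C] [IsUltrametricDist C] [CompleteSpace C] [IsAlgClosed C] [CharZero C]
  [Field kb] [IsAlgClosed kb] [Field N] [Algebra kb C] [Algebra kb N] [TrdegOne kb N]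
  {T : N} [hT : Fact (Transcendental kb T)]

/-- a homomorphism on `C ⊗ N` which is injective on `C[T]` is injective. -/
theorem injective_of_transc {Ω : Type*} [Field Ω] [Algebra C Ω] (Φ : C ⊗[kb] N →ₐ[C] Ω)
    (hΦ : Transcendental C (Φ (1 ⊗ₜ[kb] T))) : Function.Injective Φ := by
  rw [injective_iff_map_eq_zero]
  intro x hx
  by_contra hx0
  letI algD : Algebra C[X] (C ⊗[kb] N) := (aeval (1 ⊗ₜ[kb] T : C ⊗[kb] N)).toRingHom.toAlgebra
  letI algNC : Algebra C[X] (NCT C kb N T) :=
    ((algebraMap (RatFunc C) (NCT C kb N T)).comp (algebraMap C[X] (RatFunc C))).toAlgebra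
  haveI tow1 : IsScalarTower C[X] (RatFunc C) (NCT C kb N T) := IsScalarTower.of_algebraMap_eq' rfl
  letI algDN : Algebra (C ⊗[kb] N) (NCT C kb N T) := inferInstanceAs (Algebra (C ⊗[kb] N) (NC C kb N))
  haveI tow2 : IsScalarTower C[X] (C ⊗[kb] N) (NCT C kb N T) := by
    refine IsScalarTower.of_algebraMap_eq fun P => ?_
    change algebraMap (RatFunc C) (NCT C kb N T) (algebraMap C[X] (RatFunc C) P) =
      algebraMap (C ⊗[kb] N) (NC C kb N) (aeval (1 ⊗ₜ[kb] T : C ⊗[kb] N) P)
    rw [algebraMap_T_poly]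
    let ι : C ⊗[kb] N →ₐ[C] NC C kb N :=
      { algebraMap (C ⊗[kb] N) (NC C kb N) with commutes' := fun c => rfl }
    exact (aeval_algHom_apply ι (1 ⊗ₜ[kb] T) P)
  have h1 : IsAlgebraic (RatFunc C) (algebraMap (C ⊗[kb] N) (NCT C kb N T) x) :=
    Algebra.IsAlgebraic.isAlgebraic _
  have h2 : IsAlgebraic C[X] (algebraMap (C ⊗[kb] N) (NCT C kb N T) x) :=
    (IsFractionRing.isAlgebraic_iff C[X] (RatFunc C) (NCT C kb N T)).2 h1
  have hinj : Function.Injective (algebraMap (C ⊗[kb] N) (NCT C kb N T)) :=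
    algebraMap_tensor_injective C kb N
  have h3 : IsAlgebraic C[X] x := (isAlgebraic_algebraMap_iff hinj).1 h2
  have h4 := Ideal.comap_ne_bot_of_algebraic_mem (R := C[X]) (I := RingHom.ker Φ.toRingHom) hx0
    ((RingHom.mem_ker).2 hx) h3
  apply h4
  rw [eq_bot_iff]
  intro P hP
  rw [Ideal.mem_comap, RingHom.mem_ker] at hP
  change Φ (aeval (1 ⊗ₜ[kb] T : C ⊗[kb] N) P) = 0 at hP
  rw [← aeval_algHom_apply] at hP
  exact (transcendental_iff.1 hΦ) P hP

/-- a homomorphism `N → Ω` over `kb(T)` with prescribed valuation ring -/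
theorem exists_hom {Ω : Type*} [Field Ω] [IsAlgClosed Ω] [Algebra kb Ω] (t : Ω)
    (ht : Transcendental kb t) (O : ValuationSubring Ω) (hkO : ∀ a : kb, algebraMap kb Ω a ∈ O)
    (htO : t ∉ O) [CharZero kb] (W : ValuationSubring N) (hk : ∀ a : kb, algebraMap kb N a ∈ W)
    (hTW : T ∉ W) : ∃ ψ : N →ₐ[kb] Ω, ψ T = t ∧ ∀ x, ψ x ∈ O ↔ x ∈ W := by
  letI algN : Algebra (RatFunc kb) N := (embR T hT.out).toRingHom.toAlgebra
  haveI towN : IsScalarTower kb (RatFunc kb) N :=
    IsScalarTower.of_algebraMap_eq fun a => ((embR T hT.out).commutes a).symm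
  haveI : Algebra.IsAlgebraic (RatFunc kb) N := isAlgebraic_ratFunc hT.out
  letI algO : Algebra (RatFunc kb) Ω := (embR t ht).toRingHom.toAlgebra
  haveI towO : IsScalarTower kb (RatFunc kb) Ω :=
    IsScalarTower.of_algebraMap_eq fun a => ((embR t ht).commutes a).symm
  have hXN : algebraMap (RatFunc kb) N RatFunc.X = T := embR_X T hT.out
  have hXO : algebraMap (RatFunc kb) Ω RatFunc.X = t := embR_X t ht
  haveI : CharZero (RatFunc kb) := charZero_of_injective_algebraMap
    (algebraMap kb (RatFunc kb)).injective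
  let M := algebraicClosure (RatFunc kb) Ω
  haveI : IsAlgClosure (RatFunc kb) M := inferInstance
  haveI : IsAlgClosed M := IsAlgClosure.isAlgClosed (RatFunc kb)
  haveI : Algebra.IsAlgebraic (RatFunc kb) M := inferInstance
  haveI : Normal (RatFunc kb) M := IsAlgClosure.normal (RatFunc kb) M
  haveI : IsGalois (RatFunc kb) M := ⟨⟩
  let ψM : N →ₐ[RatFunc kb] M := IsAlgClosed.lift
  obtain ⟨V, hV⟩ := exists_ext (ψM : N →+* M) W
  have hcomap : (O.comap (algebraMap M Ω)).comap (algebraMap (RatFunc kb) M) =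
      V.comap (algebraMap (RatFunc kb) M) := by
    ext f
    rw [ValuationSubring.mem_comap, ValuationSubring.mem_comap, ValuationSubring.mem_comap,
      ← IsScalarTower.algebraMap_apply (RatFunc kb) M Ω, mem_iff_num hkO (by rw [hXO]; exact htO)]
    have h1 : algebraMap (RatFunc kb) M f = ψM (algebraMap (RatFunc kb) N f) :=
      (ψM.commutes f).symm
    rw [h1]
    have h2 := hV (algebraMap (RatFunc kb) N f)
    rw [mem_iff_num hk (by rw [hXN]; exact hTW)] at h2
    exact h2.symm
  obtain ⟨σ, hσ⟩ := exists_conj (K := RatFunc kb) (W₁ := V) (W₂ := O.comap (algebraMap M Ω)) hcomap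
  let ψ : N →ₐ[RatFunc kb] Ω := (M.val).comp ((σ : M →ₐ[RatFunc kb] M).comp ψM)
  refine ⟨ψ.restrictScalars kb, ?_, fun x => ?_⟩
  · change ψ T = t
    rw [← hXN, ψ.commutes, hXO]
  · rw [← hV x]
    exact (hσ (ψM x)).symm

end main

end P025H497
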