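import Vale.Agent.P025.R2.H497.ContB

/-!
# P025 A-END (helper497): (2b), every place of `N` with a pole of `T` lies in a `D`-vertex
-/

set_option linter.unusedSectionVars false

open Polynomial
open scoped TensorProduct

universe u v w

namespace P025H497

open P025H373 P025H544 P025H505 P025H720 P025H361

section abs

variable {F A M R N Ω : Type*} [Field F] [Field A] [Field M] [Algebra F A] [Algebra F M]
  [CommRing R] [Field N] [Field Ω]

/-- the homomorphism on the tensor product -/
theorem exists_tensor_hom (χA : A →+* Ω) (χM : M →+* Ω)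
    (h : ∀ f : F, χA (algebraMap F A f) = χM (algebraMap F M f)) :
    ∃ Φ : A ⊗[F] M →+* Ω, (∀ a, Φ (a ⊗ₜ 1) = χA a) ∧ ∀ m, Φ (1 ⊗ₜ m) = χM m := by
  letI : Algebra F Ω := (χA.comp (algebraMap F A)).toAlgebra
  let fA : A →ₐ[F] Ω := { χA with commutes' := fun _ => rfl }
  let fM : M →ₐ[F] Ω := { χM with commutes' := fun f => (h f).symm }
  refine ⟨(Algebra.TensorProduct.lift fA fM fun _ _ => Commute.all _ _).toRingHom, fun a => ?_,
    fun m => ?_⟩
  · change Algebra.TensorProduct.lift fA fM _ (a ⊗ₜ 1) = _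
    rw [Algebra.TensorProduct.lift_tmul, map_one, mul_one]
    rfl
  · change Algebra.TensorProduct.lift fA fM _ (1 ⊗ₜ m) = _
    rw [Algebra.TensorProduct.lift_tmul, map_one, one_mul]
    rfl

/-- a point of `A ⊗ M` from compatible homomorphisms to a field -/
theorem exists_C0 (ι : R →+* A) (j : N →+* M) (T : N) (χA : A →+* Ω) (χM : M →+* Ω)
    (h : ∀ f : F, χA (algebraMap F A f) = χM (algebraMap F M f)) (O : ValuationSubring Ω)
    (h1 : ∀ a : R, χA (ι a) ∈ O) (h2 : χM (j T) ∉ O) (W : ValuationSubring N)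
    (hW : ∀ x, χM (j x) ∈ O ↔ x ∈ W) : ∃ d : Pt F A M, C0 ι j T d W := by
  obtain ⟨Φ, hA, hM⟩ := exists_tensor_hom χA χM h
  refine ⟨⟨RingHom.ker Φ, RingHom.ker_isPrime Φ⟩, C0_of_hom (φ := Φ) (O := O) (fun z => ?_) ?_⟩
  · rw [RingHom.mem_ker]
  · refine ⟨fun a => ?_, ?_, ?_⟩
    · rw [iA_apply, hA]
      exact h1 a
    · rw [iN_apply, hM]
      exact h2
    · ext x
      rw [ValuationSubring.mem_comap, RingHom.comp_apply, iN_apply, hM]
      exact hW x

end abs

section main

variable {C : Type u} {kb : Type v} {N : Type w}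
  [NontriviallyNormedField C] [IsUltrametricDist C] [CompleteSpace C] [IsAlgClosed C] [CharZero C]
  [Field kb] [IsAlgClosed kb] [Field N] [Algebra kb C] [Algebra kb N] [TrdegOne kb N]
  {T : N} [hT : Fact (Transcendental kb T)]

/-- a homomorphism `N → Ω` over `kb` extends to `NCT → Ω` over `C` -/
theorem exists_nct_hom {Ω : Type*} [Field Ω] [Algebra C Ω] [Algebra kb Ω] [IsScalarTower kb C Ω]
    (ψ : N →ₐ[kb] Ω) (hψ : Transcendental C (ψ T)) :
    ∃ χ : NCT C kb N T →+* Ω, (∀ x : N, χ (algebraMap N (NCT C kb N T) x) = ψ x) ∧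
      (∀ c : C, χ (algebraMap C (NCT C kb N T) c) = algebraMap C Ω c) := by
  let Φ : C ⊗[kb] N →ₐ[C] Ω := Algebra.TensorProduct.lift (Algebra.ofId C Ω) ψ
    fun _ _ => Commute.all _ _
  have hΦN : ∀ x : N, Φ (1 ⊗ₜ[kb] x) = ψ x := by
    intro x
    change Algebra.TensorProduct.lift _ _ _ (1 ⊗ₜ[kb] x) = _
    rw [Algebra.TensorProduct.lift_tmul, map_one, one_mul]
  have hinj : Function.Injective Φ := injective_of_transc (T := T) Φ (by rw [hΦN]; exact hψ)
  let χ : NC C kb N →+* Ω := IsFractionRing.lift (A := C ⊗[kb] N) (g := Φ.toRingHom) hinj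
  have hχ : ∀ z : C ⊗[kb] N, χ (algebraMap (C ⊗[kb] N) (NC C kb N) z) = Φ z := fun z =>
    IsFractionRing.lift_algebraMap hinj z
  refine ⟨χ, fun x => ?_, fun c => ?_⟩
  · change χ (algebraMap N (NC C kb N) x) = _
    rw [algebraMap_N_NC, hχ, hΦN]
  · change χ (algebraMap C (NC C kb N) c) = _
    rw [algebraMap_C_NC, hχ]
    exact Φ.commutes c

/-- (2b) with a given algebraically closed field over `F2 C` -/
theorem exists_vertex_of {Ω : Type*} [Field Ω] [IsAlgClosed Ω] (f : F2 C →+* Ω)
    (W : ValuationSubring N) (hk : ∀ c : kb, algebraMap kb N c ∈ W)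
    (hTW : T ∉ W) : ∃ d : DT C kb N T, Cont d W := by
  letI algC : Algebra C Ω := (f.comp (algebraMap C (F2 C))).toAlgebra
  letI algkb : Algebra kb Ω := ((algebraMap C Ω).comp (algebraMap kb C)).toAlgebra
  haveI tow : IsScalarTower kb C Ω := IsScalarTower.of_algebraMap_eq' rfl
  obtain ⟨O, hO1, hO2⟩ := exists_inf C f
  have hCO : ∀ c : C, algebraMap C Ω c ∈ O := fun c =>
    hO1 _ (Subalgebra.algebraMap_mem (A2 C) c)
  have hX : ∀ P : C[X], aeval (f (t2 C)) P = f (algebraMap (RatFunc C) (F2 C)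
      (algebraMap C[X] (RatFunc C) P)) := by
    intro P
    induction P using Polynomial.induction_on' with
    | add P Q hP hQ => simp only [map_add, hP, hQ]
    | monomial n a =>
      rw [aeval_monomial, ← C_mul_X_pow_eq_monomial, map_mul, map_mul, map_mul, map_pow, map_pow,
        map_pow, RatFunc.algebraMap_C, RatFunc.algebraMap_X]
      rfl
  have htr : Transcendental C (f (t2 C)) := by
    rw [transcendental_iff]
    intro P hP
    rw [hX] at hP
    have h1 := (map_eq_zero f).1 hP
    have h2 := (map_eq_zero (algebraMap (RatFunc C) (F2 C))).1 h1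
    exact (map_eq_zero_iff _ (RatFunc.algebraMap_injective C)).1 h2
  have htr' : Transcendental kb (f (t2 C)) := by
    rw [transcendental_iff]
    intro P hP
    have h1 : aeval (f (t2 C)) (P.map (algebraMap kb C)) = 0 := by
      rw [aeval_map_algebraMap]
      exact hP
    have h2 := (transcendental_iff.1 htr) _ h1
    exact (Polynomial.map_eq_zero _).1 h2
  haveI : CharZero kb := (algebraMap kb C).charZero
  obtain ⟨ψ, hψT, hψW⟩ := exists_hom (f (t2 C)) htr' O (fun a => hCO _) hO2 W hk hTW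
  obtain ⟨χ, hχN, hχC⟩ := exists_nct_hom (T := T) ψ (by rw [hψT]; exact htr)
  refine exists_C0 (a2 C) (algebraMap N (NCT C kb N T)) T f χ ?_ O (fun a => hO1 _ a.2) ?_ W ?_
  · intro r
    have h1 : ∀ P : C[X], f (algebraMap (RatFunc C) (F2 C) (algebraMap C[X] (RatFunc C) P)) =
        χ (algebraMap (RatFunc C) (NCT C kb N T) (algebraMap C[X] (RatFunc C) P)) := by
      intro P
      rw [← hX, algebraMap_T_poly]
      induction P using Polynomial.induction_on' with
      | add P Q hP hQ => simp only [map_add, hP, hQ]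
      | monomial n a =>
        rw [aeval_monomial, aeval_monomial, map_mul, map_pow, hχN, hχC, hψT]
    rw [← r.num_div_denom, map_div₀, map_div₀, map_div₀, map_div₀, h1, h1]
  · rw [hχN, hψT]
    exact hO2
  · intro x
    rw [hχN]
    exact hψW x

/-- **(2b)** every place of `N` over `kb` with a pole of `T` lies in a `D`-vertex. -/
theorem exists_vertex (W : ValuationSubring N) (hk : ∀ c : kb, algebraMap kb N c ∈ W)
    (hTW : T ∉ W) : ∃ d : DT C kb N T, Cont d W :=
  exists_vertex_of (algebraMap (F2 C) (AlgebraicClosure (F2 C))) W hk hTW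

end main

end P025H497
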