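import Vale.Agent.P025.R2.H746.Kap
import Vale.Agent.P025.R2.H602.Der
import Vale.Agent.P025.R2.H621.Defs
import Vale.Agent.P025.R2.H725.SplitNorm

/-!
# P025 (7.3), G-BRANCH (helper497): definitions
-/

open Polynomial Filter Topology IntermediateField

universe u

namespace P025H497

open Vale.Agent.P019P P025H373 P025H746

noncomputable section

section rat

variable (C : Type u) [NormedField C] [IsUltrametricDist C]

/-- radii tending to one from below. -/
def fl : Filter Cˣ := (𝓝[<] (1 : ℝ)).comap fun c => ‖(c : C)‖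

variable {C}

lemma transc_jc (c : Cˣ) : Transcendental C (algebraMap C (F0 C) (c : C) * tt C) := by
  rw [transcendental_iff]
  intro P hP
  have h1 : aeval (algebraMap C (F0 C) (c : C) * tt C) P =
      aeval (tt C) (P.comp (Polynomial.C (c : C) * X)) := by
    rw [aeval_comp]
    simp
  rw [h1, aeval_inj] at hP
  have h2 := congrArg (fun Q => Q.comp (Polynomial.C ((c⁻¹ : Cˣ) : C) * X)) hP
  simp only [zero_comp, comp_assoc] at h2
  have h3 : (Polynomial.C (c : C) * X).comp (Polynomial.C ((c⁻¹ : Cˣ) : C) * X) = (X : C[X]) := by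
    rw [mul_comp, C_comp, X_comp, ← mul_assoc, ← Polynomial.C_mul]
    simp
  rwa [h3, comp_X] at h2

/-- `X ↦ c t`. -/
def jc (c : Cˣ) : RatFunc C →+* F0 C :=
  (P025H621.emb (algebraMap C (F0 C) (c : C) * tt C) (transc_jc c) : RatFunc C →ₐ[C] F0 C)

lemma jc_poly (c : Cˣ) (P : C[X]) : jc c (algebraMap C[X] (RatFunc C) P) =
    aeval (algebraMap C (F0 C) (c : C) * tt C) P := P025H621.emb_algebraMap _ (transc_jc c) _

@[simp] lemma jc_X (c : Cˣ) : jc c RatFunc.X = algebraMap C (F0 C) (c : C) * tt C :=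
  P025H621.emb_X _ (transc_jc c)

@[simp] lemma jc_C (c : Cˣ) (a : C) : jc c (algebraMap C (RatFunc C) a) = algebraMap C (F0 C) a :=
  AlgHom.commutes (P025H621.emb _ (transc_jc c)) _

end rat

/-! ## composite valuation rings -/

section comp

variable {C K : Type*} [NormedField C] [IsUltrametricDist C] [Field K] [Algebra C K]

/-- the valuation ring of the elements whose reduction at `w` is regular at `x`. -/
def Vx (w : NV C K) (x : ValuationSubring (kap w)) : ValuationSubring K where
  carrier := {g | w g ≤ 1 ∧ w.red g ∈ x}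
  mul_mem' := by
    rintro a b ⟨ha, ha'⟩ ⟨hb, hb'⟩
    exact ⟨NV.mul_le_one ha hb, by rw [NV.red_mul ha hb]; exact mul_mem ha' hb'⟩
  one_mem' := by
    refine ⟨by simp, ?_⟩
    rw [NV.red_one]
    exact one_mem x
  add_mem' := by
    rintro a b ⟨ha, ha'⟩ ⟨hb, hb'⟩
    exact ⟨NV.add_le ha hb, by rw [NV.red_add ha hb]; exact add_mem ha' hb'⟩
  zero_mem' := by
    refine ⟨by simp, ?_⟩
    rw [NV.red_zero]
    exact zero_mem x
  neg_mem' := by
    rintro a ⟨ha, ha'⟩
    refine ⟨?_, ?_⟩
    · change w (-a) ≤ 1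
      rwa [NV.map_neg']
    · change w.red (-a) ∈ x
      rw [NV.red_neg ha]
      exact neg_mem ha'
  mem_or_inv_mem' := by
    intro a
    rcases lt_trichotomy (w a) 1 with h | h | h
    · left
      refine ⟨h.le, ?_⟩
      change w.red a ∈ x
      rw [NV.red_of_lt h]
      exact zero_mem x
    · rcases x.mem_or_inv_mem (w.red a) with h1 | h1
      · exact Or.inl ⟨h.le, h1⟩
      · right
        refine ⟨?_, ?_⟩
        · change w a⁻¹ ≤ 1
          rw [map_inv₀, h, inv_one]
        · change w.red a⁻¹ ∈ x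
          rwa [NV.red_inv h]
    · right
      have h1 : w a⁻¹ < 1 := by
        rw [map_inv₀]
        exact inv_lt_one_of_one_lt₀ h
      refine ⟨h1.le, ?_⟩
      change w.red a⁻¹ ∈ x
      rw [NV.red_of_lt h1]
      exact zero_mem x

theorem mem_Vx {w : NV C K} {x : ValuationSubring (kap w)} {g : K} :
    g ∈ Vx w x ↔ w g ≤ 1 ∧ w.red g ∈ x := Iff.rfl

end comp

end

end P025H497
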