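import Vale.Agent.P025.R2.H497.Branch
import Vale.Agent.P025.R2.H746.Stab

/-!
# P025 (7.3), G-BRANCH (helper497): the outputs, over a spherically complete field
-/

open Polynomial IntermediateField

universe u

namespace P025H497

open Vale.Agent.P019P P025H373 P025H746 P025H725

noncomputable section

variable {C K : Type u} [NontriviallyNormedField C] [IsUltrametricDist C] [IsAlgClosed C]
  [Field K] [Algebra C K]

theorem stabSum [CFF C K] (hC : P025H458.Sph C) (hv : ∀ r : ℝ, 0 ≤ r → ∃ x : C, ‖x‖ = r) :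
    StabSum C K := by
  intro z hz
  have : FiniteDimensional C⟮z⟯ K := CFld_finite hz
  rw [finsum_eq_sum_of_fintype]
  convert P025H746.sum_finrank_eq hC hv hz

variable [CompleteSpace C] [CharZero C] [CFF C K]

/-- (7.3) (b) -/
theorem unr (hC : P025H458.Sph C) (hv : ∀ r : ℝ, 0 ≤ r → ∃ x : C, ‖x‖ = r) {p : ℕ} (hp : p.Prime)
    (hpC : ‖(p : C)‖ < 1) (hN : Near C K p) (l : C) (hl : l ^ (p - 1) = -(p : C)) (f : K)
    (hf : f ≠ 0) (hd : P025H621.DivN C p f) (T : K) (w : NV C K) (hw : w.OverG T) (y A : K)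
    (hy : y ≠ 0) (hA : w A ≤ 1) (h : f = y ^ p * (1 + algebraMap C K l ^ p * A))
    [CFF (kC C) (kap w)] (x : Plk (kC C) (kap w)) :
    ∃ b : kap w, w.red A - (b ^ p - b) ∈ Mge x 0 :=
  branch (stabSum hC hv) hv hp hpC hN hl hw hf hd hA hy h x

/-- (7.3) (a) -/
theorem split_near (hC : P025H458.Sph C) (hv : ∀ r : ℝ, 0 ≤ r → ∃ x : C, ‖x‖ = r) {p : ℕ}
    (hp : p.Prime) (hpC : ‖(p : C)‖ < 1) (hN : Near C K p) (f : K) (hf : f ≠ 0)
    (hd : P025H621.DivN C p f) (t : K) (ht : Transcendental C t) (a b : C) (hb : b ≠ 0) :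
    ∃ r₁, ‖b‖ < r₁ ∧ ∀ b' : C, ‖b‖ < ‖b'‖ → ‖b'‖ < r₁ → ∀ w : NV C K,
      w.OverG ((t - algebraMap C K a) / algebraMap C K b') → SplitW p w f :=
  splitNear (stabSum hC hv) hv hp hpC hN f hf hd t ht a b hb

end

end P025H497
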