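import Mathlib

/-!
# Lattices over a valuation ring `A` with principal maximal ideal `tA`

`K/F` finite, finitely many valuation rings `V j` of `K` over `A` with `t = π_j ^ e_j` up to a unit,
`∑ e_j = [K : F]` and elements `y_j` separating them.  Then `⋂ V j` is free over `A` with basis
`y_j π_j ^ l`, `l < e_j`.
-/

open Module

namespace P025H497

structure Lat (F K : Type*) [Field F] [Field K] [Algebra F K] (A : ValuationSubring F) (t : F)
    (J : Type*) [Fintype J] where
  V : J → ValuationSubring K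
  e : J → ℕ
  π : J → K
  y : J → K
  e_pos : ∀ j, 0 < e j
  tne : t ≠ 0
  div : ∀ a : F, A.valuation a < 1 → A.valuation (a / t) ≤ 1
  le : ∀ j (a : F), A.valuation a ≤ 1 → (V j).valuation (algebraMap F K a) ≤ 1
  piV : ∀ j j', (V j').valuation (π j) ≤ 1
  pilt : ∀ j, (V j).valuation (π j) < 1
  pigen : ∀ j (a : K), (V j).valuation a < 1 → (V j).valuation a ≤ (V j).valuation (π j)
  tpi : ∀ j, (V j).valuation (algebraMap F K t) = (V j).valuation (π j) ^ e j
  y1 : ∀ j, (V j).valuation (y j - 1) ≤ (V j).valuation (algebraMap F K t)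
  y0 : ∀ j j', j' ≠ j → (V j').valuation (y j) ≤ (V j').valuation (algebraMap F K t)
  arch : ∀ j (a : K), (V j).valuation a ≤ 1 →
    ∃ k : ℕ, ∀ j', j' ≠ j → (V j').valuation (y j ^ k * a) < 1
  fin : finrank F K = ∑ j, e j

namespace Lat

variable {F K : Type*} [Field F] [Field K] [Algebra F K] {A : ValuationSubring F} {t : F}
  {J : Type*} [Fintype J] (L : Lat F K A t J)

/-- the index set of the basis. -/
abbrev Ix : Type _ := Σ j, Fin (L.e j)

/-- the basis elements. -/
def om (p : L.Ix) : K := L.y p.1 * L.π p.1 ^ (p.2 : ℕ)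

lemma val_t_le (j : J) : (L.V j).valuation (algebraMap F K t) ≤ (L.V j).valuation (L.π j) := by
  rw [L.tpi j]
  calc (L.V j).valuation (L.π j) ^ L.e j ≤ (L.V j).valuation (L.π j) ^ 1 :=
        pow_le_pow_right_of_le_one' (L.pilt j).le (L.e_pos j)
    _ = _ := pow_one _

lemma val_t_lt (j : J) : (L.V j).valuation (algebraMap F K t) < 1 :=
  (L.val_t_le j).trans_lt (L.pilt j)

lemma val_y (j : J) : (L.V j).valuation (L.y j) = 1 := by
  have h : (L.V j).valuation (L.y j - 1) < (L.V j).valuation 1 := by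
    rw [map_one]; exact (L.y1 j).trans_lt (L.val_t_lt j)
  have := Valuation.map_eq_of_sub_lt _ h
  rwa [map_one] at this

lemma y_le (j j' : J) : (L.V j').valuation (L.y j) ≤ 1 := by
  by_cases h : j' = j
  · subst h; exact (L.val_y j').le
  · exact (L.y0 j j' h).trans (L.val_t_lt j').le

lemma pi_ne (j : J) : (L.V j).valuation (L.π j) ≠ 0 := by
  intro h
  have h1 := L.tpi j
  rw [h, zero_pow (L.e_pos j).ne', Valuation.zero_iff] at h1
  exact L.tne ((map_eq_zero _).1 h1)

lemma pi_pos (j : J) : 0 < (L.V j).valuation (L.π j) := zero_lt_iff.2 (L.pi_ne j)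

lemma om_le (p : L.Ix) (j : J) : (L.V j).valuation (L.om p) ≤ 1 := by
  unfold om
  rw [map_mul, map_pow]
  exact mul_le_one' (L.y_le _ _) (pow_le_one' (L.piV _ _) _)

lemma val_unit (j : J) {a : F} (h : A.valuation a = 1) :
    (L.V j).valuation (algebraMap F K a) = 1 := by
  apply le_antisymm (L.le j a h.le)
  have h1 := L.le j a⁻¹ (by rw [map_inv₀, h, inv_one])
  have h0 : algebraMap F K a ≠ 0 := by
    intro h0
    rw [(map_eq_zero _).1 h0, map_zero] at h
    exact zero_ne_one h
  rw [map_inv₀, map_inv₀] at h1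
  exact (inv_le_one₀ (zero_lt_iff.2 ((Valuation.ne_zero_iff _).2 h0))).1 h1

lemma val_small (j : J) {a : F} (h : A.valuation a < 1) :
    (L.V j).valuation (algebraMap F K a) ≤ (L.V j).valuation (algebraMap F K t) := by
  have h1 := L.le j _ (L.div a h)
  have h2 : algebraMap F K a = algebraMap F K (a / t) * algebraMap F K t := by
    rw [← map_mul, div_mul_cancel₀ _ L.tne]
  rw [h2, map_mul]
  exact mul_le_of_le_one_left' h1

/-- independence modulo `t`. -/
lemma key {α : L.Ix → F} (hα : ∀ p, A.valuation (α p) ≤ 1)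
    (hs : ∀ j, (L.V j).valuation (∑ p, algebraMap F K (α p) * L.om p) ≤
      (L.V j).valuation (algebraMap F K t)) (p : L.Ix) : A.valuation (α p) < 1 := by
  classical
  by_contra hp
  have hp1 : A.valuation (α p) = 1 := le_antisymm (hα p) (not_lt.1 hp)
  obtain ⟨j, l⟩ := p
  -- minimal index
  have hex : ∃ n : ℕ, ∃ h : n < L.e j, A.valuation (α ⟨j, ⟨n, h⟩⟩) = 1 := ⟨l, l.2, hp1⟩
  obtain ⟨h0, h1⟩ := Nat.find_spec hex
  have hmin := fun m (hm : m < Nat.find hex) => Nat.find_min hex hm
  set l0 := Nat.find hex with hl0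
  set v := (L.V j).valuation with hv
  set q := v (L.π j) with hq
  have hq1 : q < 1 := L.pilt j
  have hq0 : 0 < q := L.pi_pos j
  have htq : v (algebraMap F K t) ≤ q ^ (l0 + 1) := by
    rw [hv, L.tpi j]
    exact pow_le_pow_right_of_le_one' hq1.le h0
  set p0 : L.Ix := ⟨j, ⟨l0, h0⟩⟩ with hp0
  have hoth : v (∑ p ∈ Finset.univ.erase p0, algebraMap F K (α p) * L.om p) ≤ q ^ (l0 + 1) := by
    refine Valuation.map_sum_le _ ?_
    rintro ⟨j', l'⟩ hm
    have hne : (⟨j', l'⟩ : L.Ix) ≠ p0 := Finset.ne_of_mem_erase hm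
    by_cases hj : j' = j
    · subst hj
      rcases lt_trichotomy (l' : ℕ) l0 with h2 | h2 | h2
      · have h3 : A.valuation (α ⟨j', l'⟩) < 1 := by
          refine lt_of_le_of_ne (hα _) fun h4 => hmin l' h2 ⟨l'.2, h4⟩
        rw [map_mul]
        calc v (algebraMap F K (α ⟨j', l'⟩)) * v (L.om ⟨j', l'⟩)
            ≤ v (algebraMap F K (α ⟨j', l'⟩)) := mul_le_of_le_one_right' (L.om_le _ _)
          _ ≤ v (algebraMap F K t) := L.val_small j' h3
          _ ≤ q ^ (l0 + 1) := htq
      · exact absurd (by rw [hp0]; congr 1; exact Fin.ext h2) hne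
      · rw [map_mul]
        calc v (algebraMap F K (α ⟨j', l'⟩)) * v (L.om ⟨j', l'⟩)
            ≤ v (L.om ⟨j', l'⟩) := mul_le_of_le_one_left' (L.le j' _ (hα _))
          _ ≤ q ^ (l' : ℕ) := by
            unfold om
            rw [map_mul, map_pow]
            exact mul_le_of_le_one_left' (L.y_le _ _)
          _ ≤ q ^ (l0 + 1) := pow_le_pow_right_of_le_one' hq1.le h2
    · rw [map_mul]
      calc v (algebraMap F K (α ⟨j', l'⟩)) * v (L.om ⟨j', l'⟩)
          ≤ v (L.om ⟨j', l'⟩) := mul_le_of_le_one_left' (L.le j _ (hα _))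
        _ ≤ v (L.y j') := by
          unfold om
          rw [map_mul, map_pow]
          exact mul_le_of_le_one_right' (pow_le_one' (L.piV _ _) _)
        _ ≤ v (algebraMap F K t) := L.y0 j' j (fun h => hj h.symm)
        _ ≤ q ^ (l0 + 1) := htq
  have hsum : ∑ p, algebraMap F K (α p) * L.om p = algebraMap F K (α p0) * L.om p0 +
      ∑ p ∈ Finset.univ.erase p0, algebraMap F K (α p) * L.om p :=
    (Finset.add_sum_erase _ _ (Finset.mem_univ p0)).symm
  have hterm : v (algebraMap F K (α p0) * L.om p0) = q ^ l0 := by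
    rw [map_mul, hv, L.val_unit j h1, one_mul]
    unfold om
    rw [map_mul, map_pow, L.val_y j, one_mul]
  have h2 : v (algebraMap F K (α p0) * L.om p0) ≤ q ^ (l0 + 1) := by
    have h3 : algebraMap F K (α p0) * L.om p0 = (∑ p, algebraMap F K (α p) * L.om p) -
      ∑ p ∈ Finset.univ.erase p0, algebraMap F K (α p) * L.om p := by rw [hsum]; ring
    rw [h3]
    exact (Valuation.map_sub _ _ _).trans (max_le ((hs j).trans htq) hoth)
  rw [hterm, pow_succ] at h2
  have h3 : q ^ l0 * q < q ^ l0 * 1 := mul_lt_mul_of_pos_left hq1 (pow_pos hq0 _)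
  rw [mul_one] at h3
  exact absurd h2 (not_le.2 h3)

lemma linInd : LinearIndependent F L.om := by
  classical
  rw [Fintype.linearIndependent_iff]
  intro g hg
  by_contra hne
  push Not at hne
  obtain ⟨p1, hp1⟩ := hne
  obtain ⟨p0, -, hmax⟩ := Finset.exists_max_image Finset.univ (fun p => A.valuation (g p))
    ⟨p1, Finset.mem_univ _⟩
  have hc : g p0 ≠ 0 := by
    intro h
    have := hmax p1 (Finset.mem_univ _)
    rw [h, map_zero, le_zero_iff, Valuation.zero_iff] at this
    exact hp1 this
  have h1 : A.valuation (g p0 / g p0) < 1 := by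
    refine L.key (α := fun p => g p / g p0) (fun p => ?_) (fun j => ?_) p0
    · change A.valuation (g p / g p0) ≤ 1
      rw [map_div₀]
      exact div_le_one_of_le₀ (hmax p (Finset.mem_univ _)) zero_le'
    · have h2 : ∑ p, algebraMap F K (g p / g p0) * L.om p = 0 := by
        have h3 : ∑ p, algebraMap F K (g p / g p0) * L.om p =
            algebraMap F K (g p0)⁻¹ * ∑ p, g p • L.om p := by
          rw [Finset.mul_sum]
          refine Finset.sum_congr rfl fun p _ => ?_
          rw [Algebra.smul_def, div_eq_mul_inv, map_mul]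
          ring
        rw [h3, hg, mul_zero]
      rw [h2, map_zero]
      exact zero_le'
  rw [div_self hc, map_one] at h1
  exact lt_irrefl _ h1

lemma card_ix : Fintype.card L.Ix = finrank F K := by
  rw [L.fin, Fintype.card_sigma]
  simp

variable [Nonempty J]

instance : Nonempty L.Ix := by
  obtain ⟨j⟩ := ‹Nonempty J›
  exact ⟨⟨j, ⟨0, L.e_pos j⟩⟩⟩

/-- the basis `y_j π_j ^ l`. -/
noncomputable def bas : Basis L.Ix F K :=
  basisOfLinearIndependentOfCardEqFinrank L.linInd L.card_ix

@[simp] lemma bas_apply (p : L.Ix) : L.bas p = L.om p := by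
  simp [bas]

lemma sum_repr (g : K) : ∑ p, algebraMap F K (L.bas.repr g p) * L.om p = g := by
  conv_rhs => rw [← L.bas.sum_repr g]
  refine Finset.sum_congr rfl fun p _ => ?_
  rw [Algebra.smul_def, bas_apply]

lemma repr_le {g : K} (hg : ∀ j, (L.V j).valuation g ≤ 1) (p : L.Ix) :
    A.valuation (L.bas.repr g p) ≤ 1 := by
  classical
  by_contra hp
  push Not at hp
  obtain ⟨p0, -, hmax⟩ := Finset.exists_max_image Finset.univ
    (fun p => A.valuation (L.bas.repr g p)) ⟨p, Finset.mem_univ _⟩
  set c := L.bas.repr g p0 with hcd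
  have hc1 : 1 < A.valuation c := hp.trans_le (hmax p (Finset.mem_univ _))
  have hc : c ≠ 0 := by
    intro h
    rw [h, map_zero] at hc1
    exact absurd hc1 (not_lt.2 zero_le')
  have hci : A.valuation c⁻¹ < 1 := by
    rw [map_inv₀]
    exact inv_lt_one_of_one_lt₀ hc1
  have h1 : A.valuation (c / c) < 1 := by
    refine L.key (α := fun p => L.bas.repr g p / c) (fun p => ?_) (fun j => ?_) p0
    · change A.valuation (L.bas.repr g p / c) ≤ 1
      rw [map_div₀]
      exact div_le_one_of_le₀ (hmax p (Finset.mem_univ _)) zero_le'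
    · have h3 : ∑ p, algebraMap F K (L.bas.repr g p / c) * L.om p = algebraMap F K c⁻¹ * g := by
        conv_rhs => rw [← L.sum_repr g]
        rw [Finset.mul_sum]
        refine Finset.sum_congr rfl fun p _ => ?_
        rw [div_eq_mul_inv, map_mul]
        ring
      rw [h3, map_mul]
      exact (mul_le_of_le_one_right' (hg j)).trans (L.val_small j hci)
  rw [div_self hc, map_one] at h1
  exact lt_irrefl _ h1

lemma repr_lt {g : K} (hg : ∀ j, (L.V j).valuation g ≤ (L.V j).valuation (algebraMap F K t))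
    (p : L.Ix) : A.valuation (L.bas.repr g p) < 1 := by
  refine L.key (α := fun p => L.bas.repr g p) (fun p => ?_) (fun j => ?_) p
  · exact L.repr_le (fun j => (hg j).trans (L.val_t_lt j).le) p
  · rw [L.sum_repr g]
    exact hg j

/-- matrix of multiplication by `a`. -/
noncomputable def mat (a : K) (p q : L.Ix) : F := L.bas.repr (a * L.om q) p

lemma mat_spec (a : K) (q : L.Ix) :
    ∑ p, algebraMap F K (L.mat a p q) * L.om p = a * L.om q := L.sum_repr _

lemma mat_le {a : K} (ha : ∀ j, (L.V j).valuation a ≤ 1) (p q : L.Ix) :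
    A.valuation (L.mat a p q) ≤ 1 := by
  refine L.repr_le (fun j => ?_) p
  rw [map_mul]
  exact mul_le_one' (ha j) (L.om_le _ _)

lemma mat_lt {a : K} (ha : ∀ j, (L.V j).valuation a ≤ (L.V j).valuation (algebraMap F K t))
    (p q : L.Ix) : A.valuation (L.mat a p q) < 1 := by
  refine L.repr_lt (fun j => ?_) p
  rw [map_mul]
  exact (mul_le_of_le_one_right' (L.om_le _ _)).trans (ha j)

end Lat

end P025H497
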