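import Vale.Agent.P025.R2.H497.Pts

/-!
# P025 (7.3), G-BRANCH (helper497): the lattice of the points over `(Gauss, 0)`, II
-/

open Polynomial Filter Topology IntermediateField

universe u

namespace P025H497

open Vale.Agent.P019P P025H373 P025H746

set_option linter.unusedSectionVars false

noncomputable section

section one

variable {C K : Type*} [NormedField C] [IsUltrametricDist C] [Field K] [Algebra C K]
  {w : NV C K} [CFF (kC C) (kap w)] {x : Plk (kC C) (kap w)}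

theorem Vx_of_lt {a : K} (ha : w a < 1) : (Vx w x.1).valuation a < 1 := by
  rw [Vx_lt_one, NV.red_of_lt ha, map_zero]
  exact ⟨ha.le, zero_lt_one⟩

theorem Vx_le_of_lt {a b : K} (ha : w a < 1) (hb : w b = 1) :
    (Vx w x.1).valuation a ≤ (Vx w x.1).valuation b := by
  rw [Vx_le_iff hb, NV.red_of_lt ha, map_zero]
  exact ⟨ha.le, zero_le⟩

theorem Vx_pi_lt {π : K} (hπ : w π = 1) (ho : ord x (w.red π) = 1) :
    (Vx w x.1).valuation π < 1 := by
  rw [Vx_lt_one, pl_lt_iff, mem_Mge, ho]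
  exact ⟨hπ.le, Or.inr le_rfl⟩

theorem Vx_pi_gen {π : K} (hπ : w π = 1) (ho : ord x (w.red π) = 1) {a : K}
    (ha : (Vx w x.1).valuation a < 1) : (Vx w x.1).valuation a ≤ (Vx w x.1).valuation π := by
  have hr : w.red π ≠ 0 := NV.red_ne_zero hπ
  rw [Vx_lt_one, pl_lt_iff] at ha
  rw [Vx_le_iff hπ, pl_le_iff hr, ho]
  exact ha

theorem Vx_le_of_ord {a b : K} (ha : w a ≤ 1) (hb : w b = 1)
    (h : w.red a ∈ Mge x (ord x (w.red b))) :
    (Vx w x.1).valuation a ≤ (Vx w x.1).valuation b := by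
  have hr : w.red b ≠ 0 := NV.red_ne_zero hb
  rw [Vx_le_iff hb, pl_le_iff hr]
  exact ⟨ha, h⟩

theorem Vx_tpi {π z : K} (hπ : w π = 1) (ho : ord x (w.red π) = 1) (hz : w z = 1) {e : ℕ}
    (he : (e : ℤ) = ord x (w.red z)) :
    (Vx w x.1).valuation z = (Vx w x.1).valuation π ^ e := by
  rw [← map_pow]
  have hpw : w (π ^ e) = 1 := by rw [map_pow, hπ, one_pow]
  have ho' : ord x (w.red (π ^ e)) = e := by rw [NV.red_pow hπ.le, ord_pow, ho, mul_one]
  apply le_antisymm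
  · exact Vx_le_of_ord hz.le hpw (Or.inr (by rw [ho', he]))
  · exact Vx_le_of_ord hpw.le hz (Or.inr (by rw [ho', he]))

theorem Vx_y1 {y z : K} (hy : w y ≤ 1) (hz : w z = 1) (h : w.red y - 1 ∈ Mge x (ord x (w.red z))) :
    (Vx w x.1).valuation (y - 1) ≤ (Vx w x.1).valuation z := by
  refine Vx_le_of_ord (NV.sub_le hy (by simp)) hz ?_
  rw [NV.red_sub hy (by simp), NV.red_one]
  exact h

/-- powers of an element vanishing at `x` -/
theorem Vx_arch {y a : K} (hy : w y ≤ 1) (ha : w a ≤ 1) (h : w.red y ∈ Mge x 1) :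
    ∃ k0 : ℕ, ∀ k, k0 ≤ k → (Vx w x.1).valuation (y ^ k * a) < 1 := by
  refine ⟨(1 - ord x (w.red a)).toNat + 1, fun k hk => ?_⟩
  have hp : w (y ^ k) ≤ 1 := NV.pow_le_one' hy k
  rw [Vx_lt_one, NV.red_mul hp ha, NV.red_pow hy, pl_lt_iff]
  refine ⟨NV.mul_le_one hp ha, ?_⟩
  rw [mem_Mge] at h ⊢
  by_cases ha0 : w.red a = 0
  · left; rw [ha0, mul_zero]
  by_cases hy0 : w.red y = 0
  · left
    rw [hy0, zero_pow (by omega), zero_mul]
  · have h1 := h.resolve_left hy0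
    right
    rw [ord_mul x (pow_ne_zero _ hy0) ha0, ord_pow]
    have h4 : (k : ℤ) * 1 ≤ k * ord x (w.red y) := mul_le_mul_of_nonneg_left h1 (by omega)
    omega

theorem Vx_arch' {y : K} (hy : w y < 1) (a : K) :
    ∃ k0 : ℕ, ∀ k, k0 ≤ k → (Vx w x.1).valuation (y ^ k * a) < 1 := by
  have h2 : Tendsto (fun k : ℕ => w y ^ k * w a) atTop (𝓝 (0 * w a)) :=
    (tendsto_pow_atTop_nhds_zero_of_lt_one (w.av.nonneg _) hy).mul_const _
  rw [zero_mul] at h2
  obtain ⟨k0, hk0⟩ := eventually_atTop.1 (h2.eventually (gt_mem_nhds zero_lt_one))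
  refine ⟨k0, fun k hk => Vx_of_lt ?_⟩
  rw [map_mul, map_pow]
  exact hk0 k hk

end one

variable {C K : Type u} [NontriviallyNormedField C] [IsUltrametricDist C] [Field K] [Algebra C K]
  [IsAlgClosed C] {z : K} [FiniteDimensional C⟮z⟯ K]

/-- the sum of the orders at the zeros. -/
theorem sum_fib (w : {w : NV C K // w.OverG z}) :
    ∑ x : Fib w, ez w x = Module.finrank (kC C)⟮w.1.red z⟯ (kap w.1) := by
  have h1 := fib_sum w.2.red_ne 0
  simp only [map_zero, sub_zero] at h1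
  have h3 : ((∑ x : Fib w, ez w x : ℕ) : ℤ) = ∑ x : Fib w, ord x.1 (w.1.red z) := by
    push_cast
    exact Finset.sum_congr rfl fun x _ => ez_eq w x
  have h4 : ∑ x : Fib w, ord x.1 (w.1.red z) =
      Module.finrank (kC C)⟮w.1.red z⟯ (kap w.1) := by
    rw [← h1]
    symm
    refine Finset.sum_subtype _ (fun x => ?_) (fun x => ord x (w.1.red z))
    rw [Set.Finite.mem_toFinset, lt_iff_ord w x]
    simp
  exact_mod_cast h3.trans h4

theorem sum_e {n : ℕ} (hS : ∑ᶠ w : {w : NV C K // w.OverG z},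
      Module.finrank (kC C)⟮w.1.red z⟯ (kap w.1) = n) :
    ∑ j : Jz C z, ez j.w j.x = n := by
  rw [sum_Jz (fun w x => ez w x), ← hS, finsum_eq_sum_of_fintype]
  exact Finset.sum_congr rfl fun w _ => sum_fib w

variable [Algebra (RatFunc C) K] [IsScalarTower C (RatFunc C) K]

/-- the lattice of the points over `(Gauss, 0)` -/
theorem exists_lat (hX : z = algebraMap (RatFunc C) K RatFunc.X) [(fl C).NeBot]
    (hS : ∑ᶠ w : {w : NV C K // w.OverG z},
      Module.finrank (kC C)⟮w.1.red z⟯ (kap w.1) = Module.finrank C⟮z⟯ K) :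
    ∃ L : Lat (RatFunc C) K (AA C) RatFunc.X (Jz C z), (∀ j, L.V j = Vx j.w.1 j.x.1.1) ∧
      ∀ j, L.e j = ez j.w j.x := by
  classical
  choose π hπ1 hπ2 hπ3 hπ4 using
    fun (w : {w : NV C K // w.OverG z}) (x : Fib w) => exists_pi' w.2 x.1 x.2
  choose y hy1 hy2 hy3 hy4 using
    fun (w : {w : NV C K // w.OverG z}) (x : Fib w) => exists_y' w.2 x.1 x.2
  have hz1 : ∀ w : {w : NV C K // w.OverG z}, w.1 z = 1 := fun w => w.2.apply_T
  have hne : ∀ w w' : {w : NV C K // w.OverG z}, w' ≠ w → w'.1 ≠ w.1 :=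
    fun w w' h h' => h (Subtype.ext h')
  have hpiV : ∀ (w : {w : NV C K // w.OverG z}) (x : Fib w) (w' : {w : NV C K // w.OverG z})
      (x' : Fib w'), (Vx w'.1 x'.1.1).valuation (π w x) ≤ 1 := by
    intro w x w' x'
    by_cases h : w' = w
    · subst h
      rw [Vx_le_one]
      exact ⟨(hπ1 w' x).le, hπ3 w' x x'.1 x'.2⟩
    · exact (Vx_of_lt (hπ4 w x w'.1 w'.2 (hne _ _ h))).le
  have hy0 : ∀ (w : {w : NV C K // w.OverG z}) (x : Fib w) (w' : {w : NV C K // w.OverG z})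
      (x' : Fib w'), (⟨w', x'⟩ : Jz C z) ≠ ⟨w, x⟩ →
        (Vx w'.1 x'.1.1).valuation (y w x) ≤ (Vx w'.1 x'.1.1).valuation z := by
    intro w x w' x' hj
    by_cases h : w' = w
    · subst h
      refine Vx_le_of_ord (hy1 w' x) (hz1 w') (hy3 w' x x'.1 x'.2 fun hxx => hj ?_)
      rw [Subtype.ext hxx]
    · exact Vx_le_of_lt (hy4 w x w'.1 w'.2 (hne _ _ h)) (hz1 w')
  have hyV : ∀ (w : {w : NV C K // w.OverG z}) (x : Fib w) (w' : {w : NV C K // w.OverG z})
      (x' : Fib w') (a : K), w.1 a ≤ 1 → ∃ k0 : ℕ, ∀ k, k0 ≤ k → (⟨w', x'⟩ : Jz C z) ≠ ⟨w, x⟩ →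
        (Vx w'.1 x'.1.1).valuation (y w x ^ k * a) < 1 := by
    intro w x w' x' a ha
    by_cases hj : (⟨w', x'⟩ : Jz C z) = ⟨w, x⟩
    · exact ⟨0, fun k _ h => absurd hj h⟩
    by_cases h : w' = w
    · subst h
      have h1 := hy3 w' x x'.1 x'.2 fun hxx => hj (by rw [Subtype.ext hxx])
      have h2 := (lt_iff_ord w' x'.1).1 x'.2
      obtain ⟨k0, hk0⟩ := Vx_arch (x := x'.1) (hy1 w' x) ha (Mge_mono x'.1 (by omega) h1)
      exact ⟨k0, fun k hk _ => hk0 k hk⟩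
    · obtain ⟨k0, hk0⟩ := Vx_arch' (x := x'.1) (hy4 w x w'.1 w'.2 (hne _ _ h)) a
      exact ⟨k0, fun k hk _ => hk0 k hk⟩
  have harch : ∀ (j : Jz C z) (a : K), (Vx j.w.1 j.x.1.1).valuation a ≤ 1 →
      ∃ k : ℕ, ∀ j' : Jz C z, j' ≠ j →
        (Vx j'.w.1 j'.x.1.1).valuation (y j.w j.x ^ k * a) < 1 := by
    intro j a ha
    rw [Vx_le_one] at ha
    choose k0 hk0 using fun j' : Jz C z => hyV j.w j.x j'.w j'.x a ha.1
    obtain ⟨k, hk⟩ := (Set.finite_range k0).bddAbove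
    exact ⟨k, fun j' hj' => hk0 j' k (hk ⟨j', rfl⟩) hj'⟩
  have hfin : Module.finrank (RatFunc C) K = ∑ j : Jz C z, ez j.w j.x := by
    rw [finrank_rat hX]
    exact (sum_e hS).symm
  exact ⟨{ V := fun j => Vx j.w.1 j.x.1.1
           e := fun j => ez j.w j.x
           π := fun j => π j.w j.x
           y := fun j => y j.w j.x
           e_pos := fun j => ez_pos j.w j.x
           tne := RatFunc.X_ne_zero
           div := AA_div
           le := fun j a ha => AA_le (hX ▸ good_Vx j.w.2 j.x.1 j.x.2) a ha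
           piV := fun j j' => hpiV j.w j.x j'.w j'.x
           pilt := fun j => Vx_pi_lt (hπ1 j.w j.x) (hπ2 j.w j.x)
           pigen := fun j a ha => Vx_pi_gen (hπ1 j.w j.x) (hπ2 j.w j.x) ha
           tpi := fun j => hX ▸ Vx_tpi (hπ1 j.w j.x) (hπ2 j.w j.x) (hz1 j.w) (ez_eq j.w j.x)
           y1 := fun j => hX ▸ Vx_y1 (hy1 j.w j.x) (hz1 j.w) (hy2 j.w j.x)
           y0 := fun j j' hj => hX ▸ hy0 j.w j.x j'.w j'.x hj
           arch := harch
           fin := hfin }, fun j => rfl, fun j => rfl⟩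

end

end P025H497
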