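import Vale.Agent.P025.R2.H497.Lat

/-!
# Norms over a family of norms of `F` tending to the valuation ring `A`
-/

open Module Filter

namespace P025H497

namespace Lat

variable {F K : Type*} [Field F] [Field K] [Algebra F K] {A : ValuationSubring F} {t : F}
  {J : Type*} [Fintype J] (L : Lat F K A t J) [Nonempty J]

lemma om_ne (p : L.Ix) : L.om p ≠ 0 := L.linInd.ne_zero p

lemma norm_mul_le {w : AbsoluteValue K ℝ} (hw : IsNonarchimedean w) {a : K} {δ : ℝ}
    (h : ∀ p q, w (algebraMap F K (L.mat a p q)) ≤ δ) : w a ≤ δ := by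
  obtain ⟨q, -, hq⟩ := Finset.exists_max_image Finset.univ (fun q : L.Ix => w (L.om q))
    Finset.univ_nonempty
  have hq0 : 0 < w (L.om q) := w.pos (L.om_ne q)
  have h1 := L.mat_spec a q
  obtain ⟨p, -, hp⟩ := hw.finset_image_add_of_nonempty
    (fun p => algebraMap F K (L.mat a p q) * L.om p) (t := Finset.univ) Finset.univ_nonempty
  rw [h1, map_mul, map_mul] at hp
  have hδ : 0 ≤ δ := (w.nonneg _).trans (h p q)
  have h2 : w a * w (L.om q) ≤ δ * w (L.om q) :=
    hp.trans (mul_le_mul (h p q) (hq p (Finset.mem_univ _)) (w.nonneg _) hδ)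
  exact le_of_mul_le_mul_right h2 hq0

lemma norm_mul_lt {w : AbsoluteValue K ℝ} (hw : IsNonarchimedean w) {a : K}
    (h : ∀ p q, w (algebraMap F K (L.mat a p q)) < 1) : w a < 1 := by
  classical
  obtain ⟨p0, -, hp0⟩ := Finset.exists_max_image Finset.univ
    (fun p : L.Ix × L.Ix => w (algebraMap F K (L.mat a p.1 p.2))) Finset.univ_nonempty
  exact (L.norm_mul_le hw fun p q => hp0 (p, q) (Finset.mem_univ _)).trans_lt (h _ _)

section fam

variable {I : Type*} {l : Filter I} {ν : I → F → ℝ}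
  (hle : ∀ a, A.valuation a ≤ 1 → ∀ᶠ i in l, ν i a ≤ 1)
  (hlt : ∀ a, A.valuation a < 1 → ∀ᶠ i in l, ν i a < 1)

include hle in
lemma ev_le {a : K} (ha : ∀ j, (L.V j).valuation a ≤ 1) :
    ∀ᶠ i in l, ∀ w : AbsoluteValue K ℝ, IsNonarchimedean w →
      (∀ g : F, w (algebraMap F K g) = ν i g) → w a ≤ 1 := by
  have h1 : ∀ᶠ i in l, ∀ p q, ν i (L.mat a p q) ≤ 1 := by
    rw [eventually_all]; intro p
    rw [eventually_all]; intro q
    exact hle _ (L.mat_le ha p q)
  filter_upwards [h1] with i hi w hw hwν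
  exact L.norm_mul_le hw fun p q => by rw [hwν]; exact hi p q

include hlt in
lemma ev_lt' {a : K} (ha : ∀ j, (L.V j).valuation a ≤ (L.V j).valuation (algebraMap F K t)) :
    ∀ᶠ i in l, ∀ w : AbsoluteValue K ℝ, IsNonarchimedean w →
      (∀ g : F, w (algebraMap F K g) = ν i g) → w a < 1 := by
  have h1 : ∀ᶠ i in l, ∀ p q, ν i (L.mat a p q) < 1 := by
    rw [eventually_all]; intro p
    rw [eventually_all]; intro q
    exact hlt _ (L.mat_lt ha p q)
  filter_upwards [h1] with i hi w hw hwν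
  exact L.norm_mul_lt hw fun p q => by rw [hwν]; exact hi p q

lemma exists_pow_le {a : K} (ha : ∀ j, (L.V j).valuation a < 1) :
    ∃ n : ℕ, 0 < n ∧ ∀ j, (L.V j).valuation (a ^ n) ≤ (L.V j).valuation (algebraMap F K t) := by
  refine ⟨∑ j, L.e j, ?_, fun j => ?_⟩
  · obtain ⟨j⟩ := ‹Nonempty J›
    exact Finset.sum_pos (fun j _ => L.e_pos j) ⟨j, Finset.mem_univ _⟩
  · rw [map_pow, L.tpi]
    calc (L.V j).valuation a ^ (∑ j, L.e j) ≤ (L.V j).valuation a ^ L.e j :=
          pow_le_pow_right_of_le_one' (ha j).le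
            (Finset.single_le_sum (fun _ _ => Nat.zero_le _) (Finset.mem_univ j))
      _ ≤ _ := pow_le_pow_left' (L.pigen j a (ha j)) _

include hlt in
lemma ev_lt {a : K} (ha : ∀ j, (L.V j).valuation a < 1) :
    ∀ᶠ i in l, ∀ w : AbsoluteValue K ℝ, IsNonarchimedean w →
      (∀ g : F, w (algebraMap F K g) = ν i g) → w a < 1 := by
  obtain ⟨n, hn, h1⟩ := L.exists_pow_le ha
  filter_upwards [L.ev_lt' hlt h1] with i hi w hw hwν
  have := hi w hw hwν
  rw [map_pow] at this
  exact (pow_lt_one_iff_of_nonneg (w.nonneg _) hn.ne').1 this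

/-- `y_j ^ k a` is small everywhere. -/
lemma exists_small {j : J} {a : K} (ha : (L.V j).valuation a < 1) :
    ∃ k : ℕ, ∀ j', (L.V j').valuation (L.y j ^ k * a) < 1 := by
  obtain ⟨k, hk⟩ := L.arch j a ha.le
  refine ⟨k, fun j' => ?_⟩
  by_cases h : j' = j
  · subst h
    rw [map_mul, map_pow, L.val_y, one_pow, one_mul]
    exact ha
  · exact hk j' h

lemma sum_y (j : J) : (L.V j).valuation (∑ i, L.y i - 1) < 1 := by
  classical
  have h1 : ∑ i, L.y i - 1 = (L.y j - 1) + ∑ i ∈ Finset.univ.erase j, L.y i := by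
    rw [← Finset.add_sum_erase _ _ (Finset.mem_univ j)]; ring
  rw [h1]
  refine lt_of_le_of_lt (Valuation.map_add_le _ (L.y1 j) (Valuation.map_sum_le _ fun i hi => ?_))
    (L.val_t_lt j)
  exact L.y0 i j (Finset.ne_of_mem_erase hi).symm

include hlt in
/-- every norm over `ν i`, `i` large, is near one of the `V j`. -/
lemma ev_cover {a : J → K} (ha : ∀ j, (L.V j).valuation (a j) < 1) :
    ∀ᶠ i in l, ∀ w : AbsoluteValue K ℝ, IsNonarchimedean w →
      (∀ g : F, w (algebraMap F K g) = ν i g) → ∃ j, w (a j) < 1 := by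
  choose k hk using fun j => L.exists_small (ha j)
  have h2 : ∀ᶠ i in l, ∀ j, ∀ w : AbsoluteValue K ℝ, IsNonarchimedean w →
      (∀ g : F, w (algebraMap F K g) = ν i g) → w (L.y j ^ k j * a j) < 1 := by
    rw [eventually_all]
    exact fun j => L.ev_lt hlt (hk j)
  filter_upwards [L.ev_lt hlt L.sum_y, h2] with i hi hi2 w hw hwν
  have h3 := hi w hw hwν
  by_contra hcon
  push Not at hcon
  have h4 : ∀ j, w (L.y j) < 1 := by
    intro j
    by_contra h5
    push Not at h5
    have h6 := hi2 j w hw hwν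
    rw [map_mul, map_pow] at h6
    have h7 : 1 ≤ w (L.y j) ^ k j * w (a j) := by
      have := mul_le_mul (one_le_pow₀ h5 (n := k j)) (hcon j) zero_le_one
        (pow_nonneg (w.nonneg _) _)
      simpa using this
    exact absurd h6 (not_lt.2 h7)
  obtain ⟨j, -, hj⟩ := hw.finset_image_add_of_nonempty L.y (t := Finset.univ)
    Finset.univ_nonempty
  have h5 : w (∑ i, L.y i) < 1 := hj.trans_lt (h4 j)
  have h6 : w 1 < 1 := by
    have h7 : (1 : K) = ∑ i, L.y i + -(∑ i, L.y i - 1) := by ring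
    rw [h7]
    refine (hw _ _).trans_lt (max_lt h5 ?_)
    rwa [w.map_neg]
  rw [map_one] at h6
  exact lt_irrefl _ h6

end fam

end Lat

end P025H497
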