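import Vale.Agent.P025.R2.H497.Ratf
import Vale.Agent.P025.R2.H497.Chr
import Vale.Agent.P025.R2.H376.Lift
import Vale.Agent.P025.R2.H885.App

/-!
# P025 (7.3), G-BRANCH (helper497): the lattice of the points over `(Gauss, 0)`
-/

open Polynomial Filter Topology IntermediateField

universe u

namespace P025H497

open Vale.Agent.P019P P025H373 P025H746

set_option linter.unusedSectionVars false

noncomputable section

/-! ## valuations of places -/

section pl

variable {k F : Type*} [Field k] [Field F] [Algebra k F] [CFF k F]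

lemma mem_iff_Mge {x : Plk k F} {a : F} : a ∈ x.1 ↔ a ∈ Mge x 0 := by
  rw [mem_iff_ord, mem_Mge]

lemma pl_le_iff {x : Plk k F} {a b : F} (hb : b ≠ 0) :
    x.1.valuation a ≤ x.1.valuation b ↔ a ∈ Mge x (ord x b) := by
  have h1 : x.1.valuation a ≤ x.1.valuation b ↔ a / b ∈ x.1 := by
    rw [← ValuationSubring.valuation_le_one_iff, map_div₀]
    have : 0 < x.1.valuation b := zero_lt_iff.2 ((Valuation.ne_zero_iff _).2 hb)
    rw [div_le_one₀ this]
  rw [h1, mem_iff_Mge, mem_Mge, mem_Mge]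
  by_cases ha : a = 0
  · simp [ha]
  · rw [div_eq_mul_inv, ord_mul x ha (inv_ne_zero hb), ord_inv]
    simp only [mul_eq_zero, ha, inv_eq_zero, hb, or_self, false_or]
    omega

lemma pl_lt_iff {x : Plk k F} {a : F} : x.1.valuation a < 1 ↔ a ∈ Mge x 1 := by
  by_cases ha : a = 0
  · simp [ha, mem_Mge]
  rw [← not_le, ← map_one x.1.valuation, pl_le_iff ha, mem_Mge, mem_Mge, ord_one]
  simp only [one_ne_zero, ha, false_or]
  omega

end pl

section comp

variable {C K : Type*} [NormedField C] [IsUltrametricDist C] [Field K] [Algebra C K]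
  {w : NV C K} {x : ValuationSubring (kap w)}

lemma Vx_le_one {g : K} : (Vx w x).valuation g ≤ 1 ↔ w g ≤ 1 ∧ w.red g ∈ x := by
  rw [ValuationSubring.valuation_le_one_iff, mem_Vx]

lemma Vx_lt_one {g : K} : (Vx w x).valuation g < 1 ↔ w g ≤ 1 ∧ x.valuation (w.red g) < 1 := by
  by_cases hg : g = 0
  · simp [hg]
  have h1 : (Vx w x).valuation g < 1 ↔ g ∈ Vx w x ∧ g⁻¹ ∉ Vx w x := by
    rw [← ValuationSubring.valuation_le_one_iff, ← ValuationSubring.valuation_le_one_iff,
      map_inv₀, not_le]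
    have : 0 < (Vx w x).valuation g := zero_lt_iff.2 ((Valuation.ne_zero_iff _).2 hg)
    rw [one_lt_inv₀ this]
    exact ⟨fun h => ⟨h.le, h⟩, fun h => h.2⟩
  rw [h1, mem_Vx, mem_Vx]
  rcases lt_trichotomy (w g) 1 with h | h | h
  · have h2 : ¬ (w g⁻¹ ≤ 1) := by
      rw [map_inv₀, not_le]
      exact (one_lt_inv₀ (w.av.pos hg)).2 h
    simp only [h.le, NV.red_of_lt h, zero_mem, h2, false_and, not_false_eq_true, and_self,
      map_zero, true_and, true_iff]
    exact zero_lt_one
  · have h0 : w.red g ≠ 0 := NV.red_ne_zero h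
    have h2 : w g⁻¹ = 1 := by rw [map_inv₀, h, inv_one]
    rw [NV.red_inv h]
    simp only [h.le, h2.le, true_and]
    rw [← ValuationSubring.valuation_le_one_iff, ← ValuationSubring.valuation_le_one_iff,
      map_inv₀, not_le]
    have : 0 < x.valuation (w.red g) := zero_lt_iff.2 ((Valuation.ne_zero_iff _).2 h0)
    rw [one_lt_inv₀ this]
    exact ⟨fun h => h.2, fun h => ⟨h.le, h⟩⟩
  · simp [not_le.2 h]

lemma Vx_le_iff {a b : K} (hb : w b = 1) : (Vx w x).valuation a ≤ (Vx w x).valuation b ↔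
    w a ≤ 1 ∧ x.valuation (w.red a) ≤ x.valuation (w.red b) := by
  have hb0 : b ≠ 0 := by
    rintro rfl
    rw [map_zero] at hb
    exact zero_ne_one hb
  have hrb : w.red b ≠ 0 := NV.red_ne_zero hb
  have h1 : 0 < (Vx w x).valuation b := zero_lt_iff.2 ((Valuation.ne_zero_iff _).2 hb0)
  have h2 : 0 < x.valuation (w.red b) := zero_lt_iff.2 ((Valuation.ne_zero_iff _).2 hrb)
  have h3 : w b⁻¹ = 1 := by rw [map_inv₀, hb, inv_one]
  rw [← div_le_one₀ h1, ← map_div₀, Vx_le_one]
  have h4 : w (a / b) = w a := by rw [map_div₀, hb, div_one]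
  rw [h4]
  refine and_congr_right fun h5 => ?_
  rw [div_eq_mul_inv, NV.red_mul h5 h3.le, NV.red_inv hb, ← ValuationSubring.valuation_le_one_iff,
    map_mul, map_inv₀, ← div_eq_mul_inv, div_le_one₀ h2]

end comp

section pts

variable {C K : Type u} [NontriviallyNormedField C] [IsUltrametricDist C] [Field K] [Algebra C K]
  [IsAlgClosed C] {z : K}

theorem NV.OverG.ne_zero {w : NV C K} (hw : w.OverG z) : z ≠ 0 := by
  have := hw.apply_T
  rintro rfl
  rw [map_zero] at this
  exact zero_ne_one this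

/-- the points over `(Gauss, 0)` are good -/
theorem good_Vx {w : NV C K} (hw : w.OverG z) (x : Plk (kC C) (kap w))
    (hx : x.1.valuation (w.red z) < 1) : Good (C := C) (Vx w x.1) z where
  z0 := NV.OverG.ne_zero hw
  c1 c hc := by
    rw [Vx_le_one, w.ext', NV.red_algebraMap hc]
    exact ⟨hc, x.2.1 _⟩
  c2 c j hc := by
    have h1 : w (algebraMap C K c * z ^ j) < 1 := by
      rw [map_mul, map_zpow₀, w.ext', hw.apply_T, one_zpow, mul_one]
      exact hc
    rw [Vx_lt_one, NV.red_of_lt h1, map_zero]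
    exact ⟨h1.le, zero_lt_one⟩
  c3 := by
    rw [Vx_lt_one]
    exact ⟨hw.apply_T.le, hx⟩

variable [FiniteDimensional C⟮z⟯ K]

theorem exists_pi' {w : NV C K} (hw : w.OverG z) [CFF (kC C) (kap w)] (x : Plk (kC C) (kap w))
    (hx : x.1.valuation (w.red z) < 1) :
    ∃ π : K, w π = 1 ∧ ord x (w.red π) = 1 ∧
      (∀ x' : Plk (kC C) (kap w), x'.1.valuation (w.red z) < 1 → w.red π ∈ x'.1) ∧
      ∀ w' : NV C K, w'.OverG z → w' ≠ w → w' π < 1 := by
  have hζ := hw.red_ne
  have h0 : w.red z ≠ 0 := fun h => hζ 0 (by rw [h, map_zero])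
  have hlt : ∀ x' : Plk (kC C) (kap w), x'.1.valuation (w.red z) < 1 ↔ 0 < ord x' (w.red z) := by
    intro x'
    rw [pl_lt_iff, mem_Mge]
    simp only [h0, false_or]
    omega
  obtain ⟨α, h1, h2⟩ := P025H885.exists_pi hζ x ((hlt x).1 hx)
  obtain ⟨π, h3, h4, h5⟩ := P025H376.exists_lift hw α
  refine ⟨π, ?_, by rw [h4, h1], fun x' hx' => ?_, h5⟩
  · refine le_antisymm h3 (not_lt.1 fun h => ?_)
    rw [NV.red_of_lt h] at h4
    rw [← h4, ord_zero] at h1
    exact zero_ne_one h1
  · rw [h4, mem_iff_Mge]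
    exact h2 x' ((hlt x').1 hx')

theorem exists_y' {w : NV C K} (hw : w.OverG z) [CFF (kC C) (kap w)] (x : Plk (kC C) (kap w))
    (hx : x.1.valuation (w.red z) < 1) :
    ∃ y : K, w y ≤ 1 ∧ w.red y - 1 ∈ Mge x (ord x (w.red z)) ∧
      (∀ x' : Plk (kC C) (kap w), x'.1.valuation (w.red z) < 1 → x' ≠ x →
        w.red y ∈ Mge x' (ord x' (w.red z))) ∧
      ∀ w' : NV C K, w'.OverG z → w' ≠ w → w' y < 1 := by
  have hζ := hw.red_ne
  have h0 : w.red z ≠ 0 := fun h => hζ 0 (by rw [h, map_zero])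
  have hlt : ∀ x' : Plk (kC C) (kap w), x'.1.valuation (w.red z) < 1 ↔ 0 < ord x' (w.red z) := by
    intro x'
    rw [pl_lt_iff, mem_Mge]
    simp only [h0, false_or]
    omega
  obtain ⟨α, h1, h2⟩ := P025H885.exists_y hζ x ((hlt x).1 hx)
  obtain ⟨y, h3, h4, h5⟩ := P025H376.exists_lift hw α
  refine ⟨y, h3, by rw [h4]; exact h1, fun x' hx' hne => ?_, h5⟩
  rw [h4]
  exact h2 x' ((hlt x').1 hx') hne

instance cff_sub (w : {w : NV C K // w.OverG z}) : CFF (kC C) (kap w.1) := w.2.cff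

/-- the points over `(Gauss, 0)` at one norm -/
abbrev Fib (w : {w : NV C K // w.OverG z}) : Type u :=
  {x : Plk (kC C) (kap w.1) // x.1.valuation (w.1.red z) < 1}

theorem lt_iff_ord (w : {w : NV C K // w.OverG z}) (x : Plk (kC C) (kap w.1)) :
    x.1.valuation (w.1.red z) < 1 ↔ 0 < ord x (w.1.red z) := by
  have h0 : w.1.red z ≠ 0 := fun h => w.2.red_ne 0 (by rw [h, map_zero])
  rw [pl_lt_iff, mem_Mge]
  simp only [h0, false_or]
  omega

instance finite_fib (w : {w : NV C K // w.OverG z}) : Finite (Fib w) := by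
  have h1 := zeros_finite w.2.red_ne
  exact (h1.subset fun x hx => (lt_iff_ord w x).1 hx).to_subtype

noncomputable instance : Fintype {w : NV C K // w.OverG z} := Fintype.ofFinite _

noncomputable instance (w : {w : NV C K // w.OverG z}) : Fintype (Fib w) := Fintype.ofFinite _

variable (C) in
/-- the points over `(Gauss, 0)`. -/
structure Jz (z : K) : Type u where
  w : {w : NV C K // w.OverG z}
  x : Fib w

variable (C z) in
/-- -/
def JzE : Jz C z ≃ Σ w : {w : NV C K // w.OverG z}, Fib w where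
  toFun j := ⟨j.w, j.x⟩
  invFun s := ⟨s.1, s.2⟩
  left_inv _ := rfl
  right_inv _ := rfl

noncomputable instance : Fintype (Jz C z) := Fintype.ofEquiv _ (JzE C z).symm

/-- the order of `z` at `x` -/
def ez (w : {w : NV C K // w.OverG z}) (x : Fib w) : ℕ := (ord x.1 (w.1.red z)).toNat

theorem ez_eq (w : {w : NV C K // w.OverG z}) (x : Fib w) :
    (ez w x : ℤ) = ord x.1 (w.1.red z) :=
  Int.toNat_of_nonneg ((lt_iff_ord w x.1).1 x.2).le

theorem ez_pos (w : {w : NV C K // w.OverG z}) (x : Fib w) : 0 < ez w x := by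
  have := (lt_iff_ord w x.1).1 x.2
  have := ez_eq w x
  omega

theorem sum_Jz (f : ∀ w : {w : NV C K // w.OverG z}, Fib w → ℕ) :
    ∑ j : Jz C z, f j.w j.x = ∑ w, ∑ x, f w x := by
  rw [← Fintype.sum_sigma' f]
  exact Fintype.sum_equiv (JzE C z) _ _ fun j => rfl

end pts

end

end P025H497
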