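import Vale.Agent.P025.R2.H497.Defs

/-!
# P025 (7.3), G-BRANCH (helper497): the norms of radius near one of `C(t)`
-/

open Polynomial Filter Topology IntermediateField

universe u

namespace P025H497

open P025H373 P025H746

set_option linter.unusedSectionVars false

noncomputable section

section rat

variable {C : Type u} [NormedField C] [IsUltrametricDist C]

open Classical in
/-- the least index of a coefficient of maximal norm. -/
def m0 (P : C[X]) : ℕ := Nat.find (exists_coeff_eq P)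

/-- the coefficient of maximal norm and least index -/
def a0 (P : C[X]) : C := P.coeff (m0 P)

lemma norm_a0 (P : C[X]) : ‖a0 P‖ = gp P := by
  classical
  exact Nat.find_spec (exists_coeff_eq P)

lemma a0_ne {P : C[X]} (hP : P ≠ 0) : a0 P ≠ 0 := by
  intro h
  have := norm_a0 P
  rw [h, norm_zero] at this
  exact hP (gp_eq_zero.1 this.symm)

lemma coeff_le (P : C[X]) (i : ℕ) : ‖P.coeff i‖ ≤ ‖a0 P‖ := by
  rw [norm_a0]; exact norm_coeff_le P i

lemma coeff_lt {P : C[X]} {i : ℕ} (h : i < m0 P) : ‖P.coeff i‖ < ‖a0 P‖ := by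
  classical
  refine lt_of_le_of_ne (coeff_le P i) fun h1 => Nat.find_min (exists_coeff_eq P) h ?_
  rw [h1, norm_a0]

/-- valuation rings over `(Gauss, 0)`. -/
structure Good {K : Type*} [Field K] [Algebra C K] (V : ValuationSubring K) (z : K) : Prop where
  z0 : z ≠ 0
  c1 : ∀ c : C, ‖c‖ ≤ 1 → V.valuation (algebraMap C K c) ≤ 1
  c2 : ∀ (c : C) (j : ℤ), ‖c‖ < 1 → V.valuation (algebraMap C K c * z ^ j) < 1
  c3 : V.valuation z < 1

lemma Good.poly {K : Type*} [Field K] [Algebra C K] {V : ValuationSubring K} {z : K}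
    (h : Good (C := C) V z) {P : C[X]} (hP : P ≠ 0) :
    V.valuation (aeval z P) = V.valuation (algebraMap C K (a0 P) * z ^ (m0 P)) := by
  classical
  have ha := a0_ne hP
  have ha' : algebraMap C K (a0 P) ≠ 0 := (_root_.map_ne_zero _).2 ha
  have hz := h.z0
  have hne : algebraMap C K (a0 P) * z ^ (m0 P) ≠ 0 := mul_ne_zero ha' (pow_ne_zero _ hz)
  have hpos : 0 < V.valuation (algebraMap C K (a0 P) * z ^ (m0 P)) :=
    zero_lt_iff.2 ((Valuation.ne_zero_iff _).2 hne)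
  apply Valuation.map_eq_of_sub_lt
  set n := max (P.natDegree + 1) (m0 P + 1) with hn
  have h1 : aeval z P = ∑ i ∈ Finset.range n, algebraMap C K (P.coeff i) * z ^ i := by
    rw [aeval_eq_sum_range' (n := n) (by omega)]
    exact Finset.sum_congr rfl fun i _ => Algebra.smul_def _ _
  have hm : m0 P ∈ Finset.range n := Finset.mem_range.2 (by omega)
  have h2 : aeval z P - algebraMap C K (a0 P) * z ^ (m0 P) =
      ∑ i ∈ (Finset.range n).erase (m0 P), algebraMap C K (P.coeff i) * z ^ i := by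
    rw [h1, ← Finset.add_sum_erase _ _ hm, a0]
    ring
  rw [h2]
  refine Valuation.map_sum_lt _ hpos.ne' fun i hi => ?_
  have hi' : i ≠ m0 P := Finset.ne_of_mem_erase hi
  have h3 : algebraMap C K (P.coeff i) * z ^ i =
      (algebraMap C K (P.coeff i / a0 P) * z ^ ((i : ℤ) - m0 P)) *
        (algebraMap C K (a0 P) * z ^ (m0 P)) := by
    rw [zpow_sub₀ hz, map_div₀, zpow_natCast, zpow_natCast]
    field_simp
  rw [h3, map_mul]
  refine mul_lt_of_lt_one_left hpos ?_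
  rcases lt_or_gt_of_ne hi' with h4 | h4
  · apply h.c2
    rw [norm_div]
    exact (div_lt_one (norm_pos_iff.2 ha)).2 (coeff_lt h4)
  · rw [map_mul]
    have h5 : V.valuation (z ^ ((i : ℤ) - m0 P)) < 1 := by
      obtain ⟨k, hk⟩ : ∃ k : ℕ, (i : ℤ) - m0 P = (k + 1 : ℕ) := ⟨i - m0 P - 1, by omega⟩
      rw [hk, zpow_natCast, map_pow]
      exact pow_lt_one₀ zero_le h.c3 (by omega)
    refine (mul_le_of_le_one_left' (h.c1 _ ?_)).trans_lt h5
    rw [norm_div]
    exact div_le_one_of_le₀ (coeff_le P i) (norm_nonneg _)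

/-- the norm of radius near one. -/
lemma ev_poly {P : C[X]} (hP : P ≠ 0) :
    ∀ᶠ c : Cˣ in fl C, ‖jc c (algebraMap C[X] (RatFunc C) P)‖ = ‖a0 P‖ * ‖(c : C)‖ ^ (m0 P) := by
  classical
  have ha := a0_ne hP
  set n := max (P.natDegree + 1) (m0 P + 1) with hn
  have h1 : ∀ᶠ ρ in 𝓝[<] (1 : ℝ), ∀ i ∈ Finset.range n, i ≠ m0 P →
      ‖P.coeff i‖ * ρ ^ i < ‖a0 P‖ * ρ ^ (m0 P) := by
    rw [Filter.eventually_all_finset]
    intro i _
    by_cases hi : i = m0 P
    · exact Eventually.of_forall fun ρ h => absurd hi h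
    have hpos : ∀ᶠ ρ in 𝓝[<] (1 : ℝ), 0 < ρ ∧ ρ < 1 := by
      refine Filter.Eventually.and ?_ ?_
      · exact (lt_mem_nhds (zero_lt_one)).filter_mono nhdsWithin_le_nhds
      · exact eventually_mem_nhdsWithin
    rcases lt_or_gt_of_ne hi with h4 | h4
    · have hc := coeff_lt h4
      have hcont : Tendsto (fun ρ : ℝ => ‖a0 P‖ * ρ ^ (m0 P) - ‖P.coeff i‖ * ρ ^ i) (𝓝[<] 1)
          (𝓝 (‖a0 P‖ * 1 ^ (m0 P) - ‖P.coeff i‖ * 1 ^ i)) := by
        refine Tendsto.mono_left ?_ nhdsWithin_le_nhds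
        exact ((continuous_const.mul (continuous_pow _)).sub
          (continuous_const.mul (continuous_pow _))).tendsto 1
      have hgt : (0 : ℝ) < ‖a0 P‖ * 1 ^ (m0 P) - ‖P.coeff i‖ * 1 ^ i := by
        simp only [one_pow, mul_one]; linarith
      filter_upwards [hcont.eventually (lt_mem_nhds hgt)] with ρ h5 _
      linarith
    · filter_upwards [hpos] with ρ hρ _
      calc ‖P.coeff i‖ * ρ ^ i ≤ ‖a0 P‖ * ρ ^ i := by
            gcongr
            · exact pow_nonneg hρ.1.le _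
            · exact coeff_le P i
        _ < ‖a0 P‖ * ρ ^ (m0 P) := by
            have := pow_lt_pow_right_of_lt_one₀ hρ.1 hρ.2 h4
            have := norm_pos_iff.2 ha
            gcongr
  have h2 := Filter.tendsto_comap.eventually h1 (f := fun c : Cˣ => ‖(c : C)‖)
  change ∀ᶠ c : Cˣ in fl C, _ at h2
  filter_upwards [h2] with c hc
  have hm : m0 P ∈ Finset.range n := Finset.mem_range.2 (by omega)
  have hterm : ∀ i, ‖algebraMap C (F0 C) (P.coeff i) * (algebraMap C (F0 C) (c : C) * tt C) ^ i‖ =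
      ‖P.coeff i‖ * ‖(c : C)‖ ^ i := by
    intro i
    rw [norm_mul, norm_pow, norm_mul, norm_tt, mul_one, norm_algebraMap_C, norm_algebraMap_C]
  have hcp : 0 < ‖(c : C)‖ := norm_pos_iff.2 c.ne_zero
  have hpos : 0 < ‖a0 P‖ * ‖(c : C)‖ ^ (m0 P) :=
    mul_pos (norm_pos_iff.2 ha) (pow_pos hcp _)
  rw [jc_poly, aeval_eq_sum_range' (n := n) (by omega), ← Finset.add_sum_erase _ _ hm]
  simp only [Algebra.smul_def]
  have h3 : ‖∑ i ∈ (Finset.range n).erase (m0 P), algebraMap C (F0 C) (P.coeff i) *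
      (algebraMap C (F0 C) (c : C) * tt C) ^ i‖ < ‖a0 P‖ * ‖(c : C)‖ ^ (m0 P) := by
    by_cases hem : ((Finset.range n).erase (m0 P)).Nonempty
    · obtain ⟨i, hi, hi'⟩ := IsUltrametricDist.exists_norm_finsetSum_le_of_nonempty hem
        (fun i => algebraMap C (F0 C) (P.coeff i) * (algebraMap C (F0 C) (c : C) * tt C) ^ i)
      refine hi'.trans_lt ?_
      rw [hterm]
      exact hc i (Finset.mem_of_mem_erase hi) (Finset.ne_of_mem_erase hi)
    · rw [Finset.not_nonempty_iff_eq_empty.1 hem, Finset.sum_empty, norm_zero]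
      exact hpos
  have h4 : ‖algebraMap C (F0 C) (P.coeff (m0 P)) *
      (algebraMap C (F0 C) (c : C) * tt C) ^ (m0 P)‖ = ‖a0 P‖ * ‖(c : C)‖ ^ (m0 P) := hterm _
  rw [← h4] at h3 ⊢
  rw [IsUltrametricDist.norm_add_eq_max_of_norm_ne_norm h3.ne', max_eq_left h3.le]

/-- leading coefficient of a rational function -/
def ga (g : RatFunc C) : C := a0 g.num / a0 g.denom

/-- leading exponent of a rational function -/
def gj (g : RatFunc C) : ℤ := (m0 g.num : ℤ) - m0 g.denom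

lemma ga_ne {g : RatFunc C} (hg : g ≠ 0) : ga g ≠ 0 :=
  div_ne_zero (a0_ne (RatFunc.num_ne_zero hg)) (a0_ne g.denom_ne_zero)

lemma ev_rat {g : RatFunc C} (hg : g ≠ 0) :
    ∀ᶠ c : Cˣ in fl C, ‖jc c g‖ = ‖ga g‖ * ‖(c : C)‖ ^ (gj g) := by
  filter_upwards [ev_poly (RatFunc.num_ne_zero hg), ev_poly g.denom_ne_zero] with c h1 h2
  have hcp : ‖(c : C)‖ ≠ 0 := norm_ne_zero_iff.2 c.ne_zero
  conv_lhs => rw [← g.num_div_denom]
  rw [map_div₀, norm_div, h1, h2, ga, gj, norm_div, zpow_sub₀ hcp, zpow_natCast, zpow_natCast]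
  rw [mul_div_mul_comm]

lemma Good.rat {K : Type*} [Field K] [Algebra C K] [Algebra (RatFunc C) K]
    [IsScalarTower C (RatFunc C) K] {V : ValuationSubring K}
    (h : Good (C := C) V (algebraMap (RatFunc C) K RatFunc.X)) {g : RatFunc C} (hg : g ≠ 0) :
    V.valuation (algebraMap (RatFunc C) K g) =
      V.valuation (algebraMap C K (ga g) * algebraMap (RatFunc C) K RatFunc.X ^ (gj g)) := by
  have hz := h.z0
  conv_lhs => rw [← g.num_div_denom]
  rw [map_div₀, map_div₀, P025H746.algebraMap_poly, P025H746.algebraMap_poly, h.poly (RatFunc.num_ne_zero hg),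
    h.poly g.denom_ne_zero, ← map_div₀ V.valuation, ga, gj, zpow_sub₀ hz, zpow_natCast,
    zpow_natCast, map_div₀ (algebraMap C K), mul_div_mul_comm]

end rat

section AA

variable (C : Type u) [NormedField C] [IsUltrametricDist C]
  (hv : ∀ r : ℝ, 0 ≤ r → ∃ x : C, ‖x‖ = r)

include hv in
lemma fl_neBot : (fl C).NeBot := by
  unfold fl
  rw [comap_neBot_iff]
  intro t ht
  have h1 : ∀ᶠ ρ in 𝓝[<] (1 : ℝ), 0 < ρ ∧ ρ ∈ t :=
    ((lt_mem_nhds (zero_lt_one)).filter_mono nhdsWithin_le_nhds).and ht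
  obtain ⟨ρ, h2, h3⟩ := h1.exists
  obtain ⟨x, hx⟩ := hv ρ h2.le
  have hx0 : x ≠ 0 := by
    rw [← norm_pos_iff, hx]; exact h2
  exact ⟨Units.mk0 x hx0, by simpa [hx] using h3⟩

variable {C}

lemma ev_lt1 : ∀ᶠ c : Cˣ in fl C, 0 < ‖(c : C)‖ ∧ ‖(c : C)‖ < 1 := by
  have h1 : ∀ᶠ ρ in 𝓝[<] (1 : ℝ), ρ < 1 := eventually_mem_nhdsWithin
  have h2 := Filter.tendsto_comap.eventually h1 (f := fun c : Cˣ => ‖(c : C)‖)
  filter_upwards [h2] with c hc
  exact ⟨norm_pos_iff.2 c.ne_zero, hc⟩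

lemma ev_lead_lt {a : C} {j : ℤ} (h : ‖a‖ < 1 ∨ (‖a‖ ≤ 1 ∧ 0 < j)) :
    ∀ᶠ c : Cˣ in fl C, ‖a‖ * ‖(c : C)‖ ^ j < 1 := by
  rcases h with h | ⟨h, hj⟩
  · have h1 : Tendsto (fun ρ : ℝ => ‖a‖ * ρ ^ j) (𝓝[<] 1) (𝓝 (‖a‖ * 1 ^ j)) := by
      refine Tendsto.mono_left ?_ nhdsWithin_le_nhds
      exact ((continuousAt_zpow₀ (1 : ℝ) j (Or.inl one_ne_zero)).const_mul _).tendsto
    rw [one_zpow, mul_one] at h1
    exact (Filter.tendsto_comap.eventually (h1.eventually (gt_mem_nhds h))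
      (f := fun c : Cˣ => ‖(c : C)‖))
  · filter_upwards [ev_lt1 (C := C)] with c hc
    have h2 : ‖(c : C)‖ ^ j < 1 := by
      obtain ⟨k, rfl⟩ : ∃ k : ℕ, j = (k + 1 : ℕ) := ⟨(j - 1).toNat, by omega⟩
      rw [zpow_natCast]
      exact pow_lt_one₀ hc.1.le hc.2 (by omega)
    exact (mul_le_of_le_one_left (zpow_nonneg hc.1.le _) h).trans_lt h2

lemma ev_lead_le {a : C} {j : ℤ} (h : ‖a‖ < 1 ∨ (‖a‖ ≤ 1 ∧ 0 ≤ j)) :
    ∀ᶠ c : Cˣ in fl C, ‖a‖ * ‖(c : C)‖ ^ j ≤ 1 := by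
  rcases h with h | ⟨h, hj⟩
  · filter_upwards [ev_lead_lt (j := j) (Or.inl h)] with c hc
    exact hc.le
  · rcases hj.eq_or_lt with hj' | hj'
    · rw [← hj']
      exact Eventually.of_forall fun c => by simpa using h
    · filter_upwards [ev_lead_lt (Or.inr ⟨h, hj'⟩)] with c hc
      exact hc.le

lemma lead_of_frequently {a : C} (ha : a ≠ 0) {j : ℤ}
    (h : ∃ᶠ c : Cˣ in fl C, ‖a‖ * ‖(c : C)‖ ^ j ≤ 1) : ‖a‖ < 1 ∨ (‖a‖ ≤ 1 ∧ 0 ≤ j) := by
  by_contra hcon
  push Not at hcon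
  obtain ⟨h1, h2⟩ := hcon
  have h3 : ‖a⁻¹‖ < 1 ∨ (‖a⁻¹‖ ≤ 1 ∧ 0 < -j) := by
    rw [norm_inv]
    rcases h1.eq_or_lt with h4 | h4
    · right
      rw [← h4, inv_one]
      have := h2 h4.symm.le
      exact ⟨le_rfl, by omega⟩
    · left
      exact inv_lt_one_of_one_lt₀ h4
  refine h ?_
  filter_upwards [ev_lead_lt h3, ev_lt1 (C := C)] with c hc hc'
  rw [norm_inv, zpow_neg, ← mul_inv] at hc
  have : 0 < ‖a‖ * ‖(c : C)‖ ^ j := mul_pos (norm_pos_iff.2 ha) (zpow_pos hc'.1 _)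
  exact not_le.2 ((inv_lt_one₀ this).1 hc)

lemma ev_le_iff [(fl C).NeBot] {g : RatFunc C} (hg : g ≠ 0) :
    (∀ᶠ c : Cˣ in fl C, ‖jc c g‖ ≤ 1) ↔ (‖ga g‖ < 1 ∨ (‖ga g‖ ≤ 1 ∧ 0 ≤ gj g)) := by
  constructor
  · intro h
    refine lead_of_frequently (ga_ne hg) ?_
    have h1 : ∀ᶠ c : Cˣ in fl C, ‖ga g‖ * ‖(c : C)‖ ^ (gj g) ≤ 1 := by
      filter_upwards [h, ev_rat hg] with c h1 h2
      rwa [← h2]
    exact h1.frequently
  · intro h
    filter_upwards [ev_lead_le h, ev_rat hg] with c h1 h2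
    rwa [h2]

variable (C)

/-- the valuation ring of the rational functions of norm at most one for all radii near one. -/
def AA : ValuationSubring (RatFunc C) where
  carrier := {g | ∀ᶠ c : Cˣ in fl C, ‖jc c g‖ ≤ 1}
  mul_mem' := by
    intro a b ha hb
    simp only [Set.mem_ofPred_eq] at *
    filter_upwards [ha, hb] with c h1 h2
    rw [map_mul, norm_mul]
    exact mul_le_one₀ h1 (norm_nonneg _) h2
  one_mem' := by simp
  add_mem' := by
    intro a b ha hb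
    simp only [Set.mem_ofPred_eq] at *
    filter_upwards [ha, hb] with c h1 h2
    rw [map_add]
    exact (IsUltrametricDist.norm_add_le_max _ _).trans (max_le h1 h2)
  zero_mem' := by simp
  neg_mem' := by
    intro a ha
    simpa using ha
  mem_or_inv_mem' := by
    intro g
    by_cases hg : g = 0
    · left; simp [hg]
    by_cases h : ‖ga g‖ < 1 ∨ (‖ga g‖ ≤ 1 ∧ 0 ≤ gj g)
    · left
      change ∀ᶠ c : Cˣ in fl C, ‖jc c g‖ ≤ 1
      filter_upwards [ev_lead_le h, ev_rat hg] with c h1 h2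
      rwa [h2]
    · right
      change ∀ᶠ c : Cˣ in fl C, ‖jc c g⁻¹‖ ≤ 1
      have h3 : ‖(ga g)⁻¹‖ < 1 ∨ (‖(ga g)⁻¹‖ ≤ 1 ∧ 0 ≤ -gj g) := by
        push Not at h
        rw [norm_inv]
        rcases h.1.eq_or_lt with h4 | h4
        · right
          rw [← h4, inv_one]
          have := h.2 h4.symm.le
          exact ⟨le_rfl, by omega⟩
        · left
          exact inv_lt_one_of_one_lt₀ h4
      filter_upwards [ev_lead_le h3, ev_rat hg] with c h1 h2
      rw [map_inv₀, norm_inv, h2]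
      rwa [norm_inv, zpow_neg, ← mul_inv] at h1

variable {C}

lemma mem_AA {g : RatFunc C} : g ∈ AA C ↔ ∀ᶠ c : Cˣ in fl C, ‖jc c g‖ ≤ 1 := Iff.rfl

lemma AA_lt [(fl C).NeBot] {g : RatFunc C} (hg : g ≠ 0) (h : (AA C).valuation g < 1) :
    ‖ga g‖ < 1 ∨ (‖ga g‖ ≤ 1 ∧ 0 < gj g) := by
  have h1 : g ∈ AA C := (ValuationSubring.valuation_le_one_iff _ _).1 h.le
  have h2 : g⁻¹ ∉ AA C := by
    rw [← ValuationSubring.valuation_le_one_iff, map_inv₀, not_le]
    exact (one_lt_inv₀ (zero_lt_iff.2 ((Valuation.ne_zero_iff _).2 hg))).2 h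
  rw [mem_AA, ev_le_iff hg] at h1
  by_contra hcon
  push Not at hcon
  have h3 : ‖ga g‖ = 1 := by
    rcases h1 with h1 | h1
    · exact absurd h1 (not_lt.2 hcon.1)
    · exact le_antisymm h1.1 hcon.1
  have h4 : gj g ≤ 0 := hcon.2 h3.le
  apply h2
  rw [mem_AA]
  filter_upwards [ev_lead_le (a := (ga g)⁻¹) (j := -gj g) (Or.inr ⟨by
    rw [norm_inv, h3, inv_one], by omega⟩), ev_rat hg] with c h5 h6
  rw [map_inv₀, norm_inv, h6]
  rwa [norm_inv, zpow_neg, ← mul_inv] at h5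

theorem AA_ev_lt [(fl C).NeBot] (g : RatFunc C) (h : (AA C).valuation g < 1) :
    ∀ᶠ c : Cˣ in fl C, ‖jc c g‖ < 1 := by
  by_cases hg : g = 0
  · simp [hg]
  filter_upwards [ev_lead_lt (AA_lt hg h), ev_rat hg] with c h1 h2
  rwa [h2]

theorem AA_div [(fl C).NeBot] (g : RatFunc C) (h : (AA C).valuation g < 1) :
    (AA C).valuation (g / RatFunc.X) ≤ 1 := by
  rw [ValuationSubring.valuation_le_one_iff, mem_AA]
  by_cases hg : g = 0
  · simp [hg]
  have h3 : ‖ga g‖ < 1 ∨ (‖ga g‖ ≤ 1 ∧ 0 ≤ gj g - 1) := by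
    rcases AA_lt hg h with h1 | h1
    · exact Or.inl h1
    · exact Or.inr ⟨h1.1, by omega⟩
  filter_upwards [ev_lead_le h3, ev_rat hg] with c h1 h2
  have hcp : ‖(c : C)‖ ≠ 0 := norm_ne_zero_iff.2 c.ne_zero
  rw [map_div₀, norm_div, h2, jc_X, norm_mul, norm_tt, mul_one, norm_algebraMap_C]
  rwa [zpow_sub_one₀ hcp, ← mul_assoc] at h1

theorem AA_le [(fl C).NeBot] {K : Type*} [Field K] [Algebra C K] [Algebra (RatFunc C) K]
    [IsScalarTower C (RatFunc C) K] {V : ValuationSubring K}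
    (h : Good (C := C) V (algebraMap (RatFunc C) K RatFunc.X)) (g : RatFunc C)
    (hg : (AA C).valuation g ≤ 1) : V.valuation (algebraMap (RatFunc C) K g) ≤ 1 := by
  by_cases hg0 : g = 0
  · simp [hg0]
  rw [ValuationSubring.valuation_le_one_iff, mem_AA, ev_le_iff hg0] at hg
  rw [h.rat hg0]
  rcases hg with h1 | ⟨h1, h2⟩
  · exact (h.c2 _ _ h1).le
  · obtain ⟨k, hk⟩ : ∃ k : ℕ, gj g = k := ⟨(gj g).toNat, by omega⟩
    rw [hk, zpow_natCast, map_mul, map_pow]
    exact mul_le_one' (h.c1 _ h1) (pow_le_one' h.c3.le _)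

end AA

/-- the norms over `‖·‖_ρ` -/
theorem norm_over {C : Type u} [NormedField C] [IsUltrametricDist C] {K : Type*} [Field K]
    [Algebra C K] [Algebra (RatFunc C) K] [IsScalarTower C (RatFunc C) K] {w : NV C K} {c : Cˣ}
    (hw : w.OverG (algebraMap (RatFunc C) K RatFunc.X / algebraMap C K c)) (g : RatFunc C) :
    w (algebraMap (RatFunc C) K g) = ‖jc c g‖ := by
  have hc : algebraMap C K (c : C) ≠ 0 := (_root_.map_ne_zero _).2 c.ne_zero
  have h1 : ∀ P : C[X], w (algebraMap (RatFunc C) K (algebraMap C[X] (RatFunc C) P)) =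
      ‖jc c (algebraMap C[X] (RatFunc C) P)‖ := by
    intro P
    rw [P025H746.algebraMap_poly, jc_poly]
    have h2 := hw (P.comp (Polynomial.C (c : C) * X))
    have h3 : aeval (algebraMap (RatFunc C) K RatFunc.X / algebraMap C K c)
        (P.comp (Polynomial.C (c : C) * X)) = aeval (algebraMap (RatFunc C) K RatFunc.X) P := by
      rw [aeval_comp, map_mul, aeval_X, aeval_C, mul_div_cancel₀ _ hc]
    have h4 : aeval (algebraMap C (F0 C) (c : C) * tt C) P =
        aeval (tt C) (P.comp (Polynomial.C (c : C) * X)) := by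
      rw [aeval_comp, map_mul, aeval_X, aeval_C]
    rw [h3] at h2
    rw [h4, norm_aeval]
    exact h2
  rw [← g.num_div_denom, map_div₀, map_div₀, map_div₀, norm_div, h1, h1]

end

end P025H497
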