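import Vale.Agent.P025.R2.H497.Lat2
import Vale.Agent.P025.R2.H992.Prank

/-!
# P025 (7.3), G-BRANCH (helper497): change of the approximate root, the norms of characters
-/

open Polynomial Filter Topology IntermediateField

universe u

namespace P025H497

open Vale.Agent.P019P P025H373 P025H746 P025H725

set_option linter.unusedSectionVars false

noncomputable section

section twist

variable {C K : Type*} [NormedField C] [IsUltrametricDist C] [Field K] [Algebra C K]
  {w : NV C K} {p : ℕ} {l : C}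

/-- change of the approximate root by `1 + l b` -/
theorem twist (hp : p.Prime) (hpC : ‖(p : C)‖ < 1) (h0 : (p : C) ≠ 0)
    (hl : l ^ (p - 1) = -(p : C)) {f y A b : K} (hy : y ≠ 0) (hA : w A ≤ 1) (hb : w b ≤ 1)
    (hf : f = y ^ p * (1 + algebraMap C K l ^ p * A)) :
    ∃ y' A' : K, y' ≠ 0 ∧ w A' ≤ 1 ∧ f = y' ^ p * (1 + algebraMap C K l ^ p * A') ∧
      w.red A' = w.red A - (w.red b ^ p - w.red b) := by
  have hl0 : 0 < ‖l‖ := norm_l_pos hp h0 hl
  have hl1 : ‖l‖ < 1 := norm_l_lt hpC hl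
  have hwL : w (algebraMap C K l) = ‖l‖ := w.ext' l
  have hρw := w_one_add_pow (w := w) hp hpC h0 hl hb
  set L := algebraMap C K l with hL
  set ρ := (1 + L * b) ^ p - 1 - L ^ p * (b ^ p - b) with hρ
  have hlp1 : ‖l‖ ^ p < 1 := pow_lt_one₀ hl0.le hl1 hp.ne_zero
  have hlp0 : 0 < ‖l‖ ^ p := pow_pos hl0 _
  have hLne : L ≠ 0 := by
    intro h
    rw [h, map_zero] at hwL
    exact hl0.ne hwL
  have hLp : L ^ p ≠ 0 := pow_ne_zero _ hLne
  -- `ρ = L^p r`
  obtain ⟨r, hr⟩ : ∃ r : K, ρ = L ^ p * r := ⟨ρ / L ^ p, by field_simp⟩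
  have hwr : w r < 1 := by
    have h1 : w ρ = ‖l‖ ^ p * w r := by rw [hr, map_mul, map_pow, hwL]
    rw [h1] at hρw
    by_contra h2
    push Not at h2
    exact absurd hρw (not_lt.2 (le_mul_of_one_le_right hlp0.le h2))
  have hbp : w (b ^ p - b) ≤ 1 := NV.sub_le (NV.pow_le_one' hb p) hb
  set s := b ^ p - b + r with hs
  have hws : w s ≤ 1 := NV.add_le hbp hwr.le
  have hu : (1 + L * b) ^ p = 1 + L ^ p * s := by
    have : (1 + L * b) ^ p = ρ + 1 + L ^ p * (b ^ p - b) := by rw [hρ]; ring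
    rw [this, hr, hs]; ring
  have hsmall : ∀ t : K, w t ≤ 1 → w (L ^ p * t) < 1 := by
    intro t ht
    rw [map_mul, map_pow, hwL]
    exact (mul_le_of_le_one_right hlp0.le ht).trans_lt hlp1
  have hD : w (1 + L ^ p * s) = 1 := by
    have h1 := hsmall s hws
    apply le_antisymm
    · exact NV.add_le (by simp) h1.le
    · by_contra h2
      push Not at h2
      have h3 : w ((1 + L ^ p * s) - L ^ p * s) < 1 := NV.sub_lt h2 h1
      rw [add_sub_cancel_right, map_one] at h3
      exact lt_irrefl _ h3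
  have hDne : 1 + L ^ p * s ≠ 0 := by
    intro h
    rw [h, map_zero] at hD
    exact zero_ne_one hD
  have hDinv : w (1 + L ^ p * s)⁻¹ ≤ 1 := by rw [map_inv₀, hD, inv_one]
  have hredD : w.red (1 + L ^ p * s)⁻¹ = 1 := by
    rw [NV.red_inv hD, NV.red_add (by simp) (hsmall s hws).le, NV.red_of_lt (hsmall s hws),
      NV.red_one, add_zero, inv_one]
  refine ⟨y * (1 + L * b), (A - s) * (1 + L ^ p * s)⁻¹, ?_, ?_, ?_, ?_⟩
  · refine mul_ne_zero hy fun h => ?_
    rw [h, zero_pow hp.ne_zero] at hu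
    exact hDne hu.symm
  · exact NV.mul_le_one (NV.sub_le hA hws) hDinv
  · rw [hf, mul_pow, hu]
    field_simp
    ring
  · rw [NV.red_mul (NV.sub_le hA hws) hDinv, hredD, mul_one, NV.red_sub hA hws, hs,
      NV.red_add hbp hwr.le, NV.red_of_lt hwr, add_zero, NV.red_sub (NV.pow_le_one' hb p) hb,
      NV.red_pow hb]

end twist

section psi

variable {C K : Type u} [NontriviallyNormedField C] [IsUltrametricDist C] [Field K] [Algebra C K]

/-- the norm of a character -/
def nvPsi (ψ : K →+* F0 C) (h : ∀ a : C, ψ (algebraMap C K a) = algebraMap C (F0 C) a) :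
    NV C K where
  av := absOf ψ
  na := absOf_na ψ
  ext' c := by rw [absOf_apply, h, norm_algebraMap_C]

@[simp] theorem nvPsi_apply (ψ : K →+* F0 C)
    (h : ∀ a : C, ψ (algebraMap C K a) = algebraMap C (F0 C) a) (g : K) :
    nvPsi ψ h g = ‖ψ g‖ := rfl

theorem nvPsi_overG (ψ : K →+* F0 C)
    (h : ∀ a : C, ψ (algebraMap C K a) = algebraMap C (F0 C) a) {s : K} (hs : ψ s = tt C) :
    (nvPsi ψ h).OverG s := by
  intro P
  let ψA : K →ₐ[C] F0 C := { ψ with commutes' := h }
  have h1 : ψ (aeval s P) = aeval (tt C) P := by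
    have h2 : ψA (aeval s P) = aeval (ψA s) P := (aeval_algHom_apply ψA s P).symm
    have h3 : ψA s = tt C := hs
    rw [h3] at h2
    exact h2
  rw [nvPsi_apply, h1, norm_aeval]

theorem near_psi {p : ℕ} (hp : p.Prime) (h0 : (p : C) ≠ 0) {l : C} (hl : l ^ (p - 1) = -(p : C))
    (ψ : K →+* F0 C) (h : ∀ a : C, ψ (algebraMap C K a) = algebraMap C (F0 C) a)
    {f y A : K} (hy : y ≠ 0) (hf : f = y ^ p * (1 + algebraMap C K l ^ p * A))
    (hn : NearW p (nvPsi ψ h) f) :
    ∃ U B : F0 C, ‖B‖ ≤ 1 ∧ U ^ p * (1 + algebraMap C (F0 C) l ^ p * B) =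
      1 + algebraMap C (F0 C) l ^ p * ψ A := by
  obtain ⟨u, B, hu, hB, hfu⟩ := hn.exists_form hp h0 hl
  refine ⟨ψ (u / y), ψ B, hB, ?_⟩
  have h1 : (u / y) ^ p * (1 + algebraMap C K l ^ p * B) = 1 + algebraMap C K l ^ p * A := by
    rw [div_pow]
    have h2 : y ^ p * (1 + algebraMap C K l ^ p * A) =
        u ^ p * (1 + algebraMap C K l ^ p * B) := hf.symm.trans hfu
    have hyp : y ^ p ≠ 0 := pow_ne_zero _ hy
    field_simp
    rw [← h2]
  have h3 := congrArg ψ h1
  rw [map_mul, map_pow, map_add, map_mul, map_pow, map_one, map_add, map_mul, map_pow, map_one,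
    h] at h3
  exact h3

end psi

end

end P025H497
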