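import Vale.Agent.P025.H16.GeoSecM

/-!
# P025 (helper497): extensions of valuation rings: existence, conjugacy in Galois extensions
-/

open scoped Pointwise

namespace P025H497

section ext

/-- a subring and a proper ideal are dominated by a valuation ring -/
theorem exists_dom {R M : Type*} [CommRing R] [Field M] (f : R →+* M)
    (hf : Function.Injective f) (I : Ideal R) (hI : I ≠ ⊤) :
    ∃ V : ValuationSubring M, (∀ r, f r ∈ V) ∧ ∀ r ∈ I, V.valuation (f r) < 1 := by
  let e : R ≃+* f.range := RingEquiv.ofBijective f.rangeRestrict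
    ⟨fun a b h => hf (congrArg Subtype.val h), f.rangeRestrict_surjective⟩
  have hI' : I.comap (e.symm : f.range →+* R) ≠ ⊤ := Ideal.comap_ne_top _ hI
  obtain ⟨V, hV1, hV2⟩ := Ideal.image_subset_nonunits_valuationSubring _ hI'
  refine ⟨V, fun r => hV1 ⟨r, rfl⟩, fun r hr => ?_⟩
  rw [← ValuationSubring.mem_nonunits_iff]
  apply hV2
  refine ⟨e r, ?_, rfl⟩
  change e.symm (e r) ∈ I
  rwa [RingEquiv.symm_apply_apply]

/-- extension of a valuation ring to a bigger field -/
theorem exists_ext {N M : Type*} [Field N] [Field M] (f : N →+* M) (W : ValuationSubring N) :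
    ∃ V : ValuationSubring M, ∀ x, f x ∈ V ↔ x ∈ W := by
  obtain ⟨V, h1, h2⟩ := exists_dom (f.comp W.subtype) (f.injective.comp Subtype.val_injective)
    (IsLocalRing.maximalIdeal W) Ideal.IsPrime.ne_top'
  refine ⟨V, fun x => ⟨fun hx => ?_, fun hx => h1 ⟨x, hx⟩⟩⟩
  by_contra hxW
  have hx0 : x ≠ 0 := by
    rintro rfl
    exact hxW W.zero_mem
  have h3 : W.valuation x⁻¹ < 1 := by
    rw [map_inv₀]
    refine inv_lt_one_of_one_lt₀ (not_le.1 fun h => hxW ?_)
    exact (W.valuation_le_one_iff x).1 h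
  have h4 : x⁻¹ ∈ W := (W.valuation_le_one_iff _).1 h3.le
  have h5 := h2 ⟨x⁻¹, h4⟩ ((W.valuation_lt_one_iff _).2 h3)
  have h6 : V.valuation (f x)⁻¹ < 1 := by
    rw [← map_inv₀]
    exact h5
  rw [map_inv₀] at h6
  have h7 : V.valuation (f x) ≤ 1 := (V.valuation_le_one_iff _).2 hx
  have h8 : 0 < V.valuation (f x) :=
    zero_lt_iff.2 ((Valuation.ne_zero_iff _).2 ((map_ne_zero f).2 hx0))
  exact absurd ((inv_lt_one₀ h8).1 h6) (not_lt.2 h7)

end ext

section conj

open P025H16.Dec

variable {K N : Type*} [Field K] [Field N] [Algebra K N]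

/-- the Galois group permutes the extensions of a valuation ring transitively -/
theorem exists_conj [IsGalois K N] {W₁ W₂ : ValuationSubring N}
    (hW : W₂.comap (algebraMap K N) = W₁.comap (algebraMap K N)) :
    ∃ g : Gal(N/K), ∀ x, x ∈ W₁ ↔ g x ∈ W₂ := by
  have integral_mem_of : ∀ {b : N}, IsIntegral (VK K W₁) b → b ∈ W₂ := by
    intro b hb
    rw [VK, ← hW] at hb
    exact integral_mem K W₂ hb
  have exists_denom_of : ∀ x : N, x ∈ W₂ →
      ∃ b : N, IsIntegral (VK K W₁) b ∧ W₂.valuation b = 1 ∧ IsIntegral (VK K W₁) (b * x) := by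
    intro x hx
    obtain ⟨b, hb, hbx⟩ := exists_denom_N K W₂ x hx
    have hb2 : IsIntegral (W₂.comap (algebraMap K N)) (b : N) := b.2
    have hbx2 : IsIntegral (W₂.comap (algebraMap K N)) ((b : N) * x) := hbx
    rw [hW] at hb2 hbx2
    exact ⟨b, hb2, hb, hbx2⟩
  have val_lt_iff_of : ∀ a : K, W₂.valuation (algebraMap K N a) < 1 ↔
      (VK K W₁).valuation a < 1 := by
    intro a
    have h : W₂.valuation (algebraMap K N a) < 1 ↔ (W₂.comap (algebraMap K N)).valuation a < 1 :=
      ((P025H641.comap_isEquiv (F := K) W₂).lt_one_iff_lt_one (x := a)).symm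
    rw [hW] at h
    exact h
  let _ : TopologicalSpace (BK K W₁) := ⊥
  have hd : DiscreteTopology (BK K W₁) := ⟨rfl⟩
  have hcont := continuousSMul_BK K W₁
  let toW₂ : BK K W₁ →+* W₂ := ((BK K W₁).val : BK K W₁ →+* N).codRestrict W₂.toSubring
    (fun x => integral_mem_of x.2)
  let P₂ : Ideal (BK K W₁) := (IsLocalRing.maximalIdeal W₂).comap toW₂
  have hP₂prime : P₂.IsPrime := Ideal.comap_isPrime _ _
  have memP₂ : ∀ b : BK K W₁, b ∈ P₂ ↔ W₂.valuation (b : N) < 1 := by
    intro b
    rw [Ideal.mem_comap]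
    exact W₂.valuation_lt_one_iff _
  have hunder : (PK K W₁).under (VK K W₁) = P₂.under (VK K W₁) := by
    ext a
    rw [Ideal.mem_comap, Ideal.mem_comap, mem_PK, memP₂]
    have h1 : W₁.valuation (algebraMap K N (a : K)) < 1 ↔ (VK K W₁).valuation (a : K) < 1 :=
      ((P025H641.comap_isEquiv (F := K) W₁).lt_one_iff_lt_one (x := (a : K))).symm
    exact h1.trans (val_lt_iff_of (a : K)).symm
  obtain ⟨g, hg⟩ := Algebra.IsInvariant.exists_smul_of_under_eq_of_profinite
    (A := VK K W₁) (G := Gal(N/K)) (PK K W₁) P₂ hunder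
  have hP : ∀ b : BK K W₁, b ∈ PK K W₁ ↔ g • b ∈ P₂ := by
    intro b
    rw [hg]
    exact (Ideal.smul_mem_pointwise_smul_iff).symm
  have hle₂ : ∀ b : BK K W₁, W₂.valuation (b : N) ≤ 1 := fun b =>
    (W₂.valuation_le_one_iff _).2 (integral_mem_of b.2)
  refine ⟨g, fun x => ⟨fun hx => ?_, fun hx => ?_⟩⟩
  · obtain ⟨b, hb1, hbx⟩ := exists_denom_N K W₁ x hx
    have hgb : W₂.valuation ((g • b : BK K W₁) : N) = 1 := by
      rcases (hle₂ (g • b)).lt_or_eq with h | h
      · rw [← memP₂, ← hP, mem_PK, hb1] at h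
        exact absurd h (lt_irrefl _)
      · exact h
    have h1 : g ((b : N) * x) ∈ W₂ := integral_mem_of (g • (⟨_, hbx⟩ : BK K W₁) : BK K W₁).2
    rw [map_mul] at h1
    have h2 : g (b : N) = ((g • b : BK K W₁) : N) := rfl
    rw [h2, ← W₂.valuation_le_one_iff, map_mul, hgb, one_mul] at h1
    exact (W₂.valuation_le_one_iff _).1 h1
  · obtain ⟨b, hb0, hb1, hbx⟩ := exists_denom_of (g x) hx
    have hinv' : ∀ z, g⁻¹ (g z) = z := by
      intro z
      rw [← AlgEquiv.mul_apply, inv_mul_cancel]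
      rfl
    have hgb : W₁.valuation ((g⁻¹ • (⟨b, hb0⟩ : BK K W₁) : BK K W₁) : N) = 1 := by
      rcases (val_BK_le K W₁ (g⁻¹ • ⟨b, hb0⟩)).lt_or_eq with h | h
      · rw [← mem_PK, hP, smul_inv_smul, memP₂] at h
        exact absurd h (by simpa using hb1.ge)
      · exact h
    have h1 : g⁻¹ (b * g x) ∈ W₁ := integral_mem K W₁ (g⁻¹ • (⟨_, hbx⟩ : BK K W₁) : BK K W₁).2
    rw [map_mul, hinv'] at h1
    have h2 : g⁻¹ b = ((g⁻¹ • (⟨b, hb0⟩ : BK K W₁) : BK K W₁) : N) := rfl
    rw [h2, ← W₁.valuation_le_one_iff, map_mul, hgb, one_mul] at h1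
    exact (W₁.valuation_le_one_iff _).1 h1

end conj

section inf

open Polynomial

/-- `P(T)` has valuation `|T| ^ deg P` if the constants are in `V` and `T` is not. -/
theorem val_poly {k F : Type*} [Field k] [Field F] [Algebra k F] {V : ValuationSubring F}
    (hk : ∀ a : k, algebraMap k F a ∈ V) {T : F} (hT : T ∉ V) {P : k[X]} (hP : P ≠ 0) :
    V.valuation (aeval T P) = V.valuation T ^ P.natDegree := by
  have hT1 : 1 < V.valuation T := not_le.1 fun h => hT ((V.valuation_le_one_iff T).1 h)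
  have hT0 : 0 < V.valuation T := zero_lt_one.trans hT1
  have hc1 : ∀ a : k, V.valuation (algebraMap k F a) ≤ 1 := fun a =>
    (V.valuation_le_one_iff _).2 (hk a)
  have hlc : V.valuation (algebraMap k F P.leadingCoeff) = 1 := by
    have h1 : P.leadingCoeff ≠ 0 := leadingCoeff_ne_zero.2 hP
    refine le_antisymm (hc1 _) ?_
    have h2 := hc1 P.leadingCoeff⁻¹
    rw [map_inv₀, map_inv₀] at h2
    exact (inv_le_one₀ (zero_lt_iff.2 ((Valuation.ne_zero_iff _).2
      ((_root_.map_ne_zero _).2 h1)))).1 h2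
  have hlt : algebraMap k F P.leadingCoeff * T ^ P.natDegree =
      aeval T P - ∑ i ∈ Finset.range P.natDegree, algebraMap k F (P.coeff i) * T ^ i := by
    rw [aeval_eq_sum_range, Finset.sum_range_succ]
    simp only [Algebra.smul_def]
    rw [add_sub_cancel_left]
    rfl
  have hv : V.valuation (algebraMap k F P.leadingCoeff * T ^ P.natDegree) =
      V.valuation T ^ P.natDegree := by
    rw [map_mul, hlc, one_mul, map_pow]
  rw [← hv]
  apply Valuation.map_eq_of_sub_lt
  have h3 : aeval T P - algebraMap k F P.leadingCoeff * T ^ P.natDegree =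
      ∑ i ∈ Finset.range P.natDegree, algebraMap k F (P.coeff i) * T ^ i := by
    rw [hlt]; ring
  rw [h3, hv]
  refine Valuation.map_sum_lt _ (pow_pos hT0 _).ne' fun i hi => ?_
  rw [Finset.mem_range] at hi
  rw [map_mul, map_pow]
  exact (mul_le_of_le_one_left' (hc1 _)).trans_lt (pow_lt_pow_right₀ hT1 hi)

/-- valuation rings with `k ⊆ V`, `T ∉ V` have the same restriction to `k(T)`. -/
theorem mem_iff_degree {k F : Type*} [Field k] [Field F] [Algebra k F] {V : ValuationSubring F}
    (hk : ∀ a : k, algebraMap k F a ∈ V) {T : F} (hT : T ∉ V) {P Q : k[X]} (hP : P ≠ 0)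
    (hQ : Q ≠ 0) : aeval T P / aeval T Q ∈ V ↔ P.natDegree ≤ Q.natDegree := by
  have hT1 : 1 < V.valuation T := not_le.1 fun h => hT ((V.valuation_le_one_iff T).1 h)
  have hT0 : 0 < V.valuation T := zero_lt_one.trans hT1
  rw [← V.valuation_le_one_iff, map_div₀, val_poly hk hT hP, val_poly hk hT hQ,
    div_le_one₀ (pow_pos hT0 _)]
  exact pow_le_pow_iff_right₀ hT1

theorem mem_iff_num {k F : Type*} [Field k] [Field F] [Algebra k F] [Algebra (RatFunc k) F]
    [IsScalarTower k (RatFunc k) F] {V : ValuationSubring F}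
    (hk : ∀ a : k, algebraMap k F a ∈ V) (hT : algebraMap (RatFunc k) F RatFunc.X ∉ V)
    (f : RatFunc k) : algebraMap (RatFunc k) F f ∈ V ↔
      f = 0 ∨ f.num.natDegree ≤ f.denom.natDegree := by
  by_cases hf : f = 0
  · simp [hf]
  have hpol : ∀ P : k[X], algebraMap (RatFunc k) F (algebraMap k[X] (RatFunc k) P) =
      aeval (algebraMap (RatFunc k) F RatFunc.X) P := by
    intro P
    rw [← RatFunc.algebraMap_X, aeval_algebraMap_apply, aeval_algebraMap_apply,
      aeval_X_left_apply]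
  conv_lhs => rw [← f.num_div_denom]
  rw [map_div₀, hpol, hpol, mem_iff_degree hk hT (RatFunc.num_ne_zero hf) f.denom_ne_zero]
  simp [hf]

/-- two valuation rings of fields over `k(T)` containing `k` and not containing `T` have the same
restriction to `k(T)`. -/
theorem comap_eq_of {k F F' : Type*} [Field k] [Field F] [Algebra k F] [Field F'] [Algebra k F']
    [Algebra (RatFunc k) F] [IsScalarTower k (RatFunc k) F] [Algebra (RatFunc k) F']
    [IsScalarTower k (RatFunc k) F'] {V : ValuationSubring F} {V' : ValuationSubring F'}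
    (hk : ∀ a : k, algebraMap k F a ∈ V) (hk' : ∀ a : k, algebraMap k F' a ∈ V')
    (hT : algebraMap (RatFunc k) F RatFunc.X ∉ V)
    (hT' : algebraMap (RatFunc k) F' RatFunc.X ∉ V') :
    V.comap (algebraMap (RatFunc k) F) = V'.comap (algebraMap (RatFunc k) F') := by
  ext f
  rw [ValuationSubring.mem_comap, ValuationSubring.mem_comap, mem_iff_num hk hT,
    mem_iff_num hk' hT']

end inf

end P025H497
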